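import Vale.Agent.P004.H293.SP
import Vale.Agent.P004.H503.Iface3

/-!
# P004: one block of the mollifier in the random model
-/

open Finset Real

namespace P004.H293

/-- completely multiplicative extension -/
noncomputable def ffx (ω : ℕ → ℝ) (n : ℕ) : ℝ := ∏ p ∈ n.primeFactors, ω p ^ n.factorization p

lemma ffx_eq_prod (ω : ℕ → ℝ) (n : ℕ) : ffx ω n = n.factorization.prod fun p e => ω p ^ e := rfl

lemma ffx_mul (ω : ℕ → ℝ) {m n : ℕ} (hm : m ≠ 0) (hn : n ≠ 0) :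
    ffx ω (m * n) = ffx ω m * ffx ω n := by
  rw [ffx_eq_prod, ffx_eq_prod, ffx_eq_prod, Nat.factorization_mul hm hn,
    Finsupp.prod_add_index' (fun _ => pow_zero _) (fun _ _ _ => pow_add _ _ _)]

lemma ffx_one (ω : ℕ → ℝ) : ffx ω 1 = 1 := by simp [ffx]

lemma ffx_prime (ω : ℕ → ℝ) {p : ℕ} (hp : p.Prime) : ffx ω p = ω p := by
  simp [ffx, hp.primeFactors, hp.factorization_self]

lemma ffx_depOn {I : Finset ℕ} {n : ℕ} (h : n.primeFactors ⊆ I) : DepOn I (fun ω => ffx ω n) := by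
  intro ω ω' hω
  unfold ffx
  exact Finset.prod_congr rfl fun p hp => by rw [hω p (h hp)]

lemma E1_pow_nonneg {p : ℕ} (hp : 1 ≤ p) (v : ℕ) : 0 ≤ E1 p (fun x => x ^ v) := by
  unfold E1
  beta_reduce
  have hp' : (1 : ℝ) ≤ p := by exact_mod_cast hp
  have h1p : (1 : ℝ) / p ≤ 1 := by rw [div_le_one (by linarith)]; exact hp'
  have h0p : (0 : ℝ) ≤ 1 / p := by positivity
  have h1 : (0 : ℝ) ≤ 0 ^ v := by positivity
  have h2 : (0 : ℝ) ≤ 1 ^ v + (-1) ^ v := by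
    rcases Nat.even_or_odd v with h | h
    · rw [h.neg_one_pow]; norm_num
    · rw [h.neg_one_pow]; norm_num
  have h3 : 0 ≤ (1 - 1 / (p : ℝ)) / 2 := by linarith
  positivity

/-- all correlations are nonnegative -/
lemma EE_ffx_nonneg {S : Finset ℕ} (hS : ∀ p ∈ S, 1 ≤ p) (n : ℕ) :
    0 ≤ EE S (fun ω => ffx ω n) := by
  by_cases h : n.primeFactors ⊆ S
  · rw [EE_of_depOn h (ffx_depOn subset_rfl)]
    unfold ffx
    rw [EE_prod n.primeFactors (fun p x => x ^ n.factorization p)]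
    exact Finset.prod_nonneg fun p hp => E1_pow_nonneg (hS p (h hp)) _
  · obtain ⟨p, hp, hpS⟩ := Finset.not_subset.1 h
    have : EE S (fun ω => ffx ω n) = EE S (fun _ => 0) := by
      refine EE_congr fun ω hω => ?_
      unfold ffx
      refine Finset.prod_eq_zero hp ?_
      rw [hω.2 p hpS]
      refine zero_pow ?_
      rw [Nat.mem_primeFactors] at hp
      exact (hp.1.factorization_pos_of_dvd hp.2.2 hp.2.1).ne'
    rw [this, EE_const]

/-- correlation domination -/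
def Dom (S : Finset ℕ) (F G : (ℕ → ℝ) → ℝ) : Prop :=
  ∀ n : ℕ, n ≠ 0 → |EE S (fun ω => F ω * ffx ω n)| ≤ EE S (fun ω => G ω * ffx ω n)

lemma Dom.one {S : Finset ℕ} (hS : ∀ p ∈ S, 1 ≤ p) : Dom S (fun _ => 1) (fun _ => 1) := by
  intro n _
  simp only [one_mul]
  rw [abs_of_nonneg (EE_ffx_nonneg hS n)]

lemma Dom.mul_poly {S : Finset ℕ} {F G : (ℕ → ℝ) → ℝ} (h : Dom S F G) (T : Finset ℕ)
    (c d : ℕ → ℝ) (hT : ∀ a ∈ T, a ≠ 0) (hcd : ∀ a ∈ T, |c a| ≤ d a) :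
    Dom S (fun ω => (∑ a ∈ T, c a * ffx ω a) * F ω) (fun ω => (∑ a ∈ T, d a * ffx ω a) * G ω) := by
  intro n hn
  have key : ∀ (c : ℕ → ℝ) (F : (ℕ → ℝ) → ℝ),
      EE S (fun ω => (∑ a ∈ T, c a * ffx ω a) * F ω * ffx ω n) =
        ∑ a ∈ T, c a * EE S (fun ω => F ω * ffx ω (a * n)) := by
    intro c F
    rw [← Finset.sum_congr rfl (fun a _ => EE_mul_left S (c a) (fun ω => F ω * ffx ω (a * n))),
      ← EE_sum]
    congr 1
    funext ω
    rw [Finset.sum_mul, Finset.sum_mul]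
    refine Finset.sum_congr rfl fun a ha => ?_
    rw [ffx_mul ω (hT a ha) hn]
    ring
  rw [key, key]
  refine (Finset.abs_sum_le_sum_abs _ _).trans (Finset.sum_le_sum fun a ha => ?_)
  rw [abs_mul]
  exact mul_le_mul (hcd a ha) (h (a * n) (mul_ne_zero (hT a ha) hn)) (abs_nonneg _)
    ((abs_nonneg _).trans (hcd a ha))

lemma Dom.le {S : Finset ℕ} {F G : (ℕ → ℝ) → ℝ} (h : Dom S F G) : EE S F ≤ EE S G := by
  have := h 1 one_ne_zero
  simp only [ffx_one, mul_one] at this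
  exact (le_abs_self _).trans this

lemma Dom.two {S : Finset ℕ} (hS : ∀ p ∈ S, 1 ≤ p) (T : Finset ℕ)
    (c d : ℕ → ℝ) (hT : ∀ a ∈ T, a ≠ 0) (hcd : ∀ a ∈ T, |c a| ≤ d a) :
    EE S (fun ω => (∑ a ∈ T, c a * ffx ω a) ^ 2) ≤ EE S (fun ω => (∑ a ∈ T, d a * ffx ω a) ^ 2) := by
  have h := (((Dom.one hS).mul_poly T c d hT hcd).mul_poly T c d hT hcd).le
  convert h using 2 <;> · funext ω; ring

lemma Dom.four {S : Finset ℕ} (hS : ∀ p ∈ S, 1 ≤ p) (T : Finset ℕ)
    (c d : ℕ → ℝ) (hT : ∀ a ∈ T, a ≠ 0) (hcd : ∀ a ∈ T, |c a| ≤ d a) :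
    EE S (fun ω => (∑ a ∈ T, c a * ffx ω a) ^ 4) ≤ EE S (fun ω => (∑ a ∈ T, d a * ffx ω a) ^ 4) := by
  have h := (((((Dom.one hS).mul_poly T c d hT hcd).mul_poly T c d hT hcd).mul_poly T c d hT
    hcd).mul_poly T c d hT hcd).le
  convert h using 2 <;> · funext ω; ring

/-- sums of multiplicative functions over the divisors of a product of squares of primes -/
lemma sum_divisors_sq (I : Finset ℕ) (hI : ∀ p ∈ I, p.Prime) (g : ℕ → ℕ → ℝ) :
    ∑ a ∈ (∏ p ∈ I, p ^ 2).divisors, ∏ p ∈ a.primeFactors, g p (a.factorization p) =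
      ∏ p ∈ I, (1 + g p 1 + g p 2) := by
  classical
  let f : ArithmeticFunction ℝ :=
    ⟨fun a => if a = 0 then 0 else ∏ p ∈ a.primeFactors, g p (a.factorization p), by simp⟩
  have hf : f.IsMultiplicative := by
    constructor
    · simp [f]
    · intro m n hmn
      simp only [f, ArithmeticFunction.coe_mk]
      by_cases hm : m = 0
      · simp [hm]
      by_cases hn : n = 0
      · simp [hn]
      rw [if_neg (mul_ne_zero hm hn), if_neg hm, if_neg hn, hmn.primeFactors_mul,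
        Finset.prod_union hmn.disjoint_primeFactors]
      congr 1
      · refine Finset.prod_congr rfl fun p hp => ?_
        rw [Nat.factorization_mul hm hn, Finsupp.add_apply]
        have : n.factorization p = 0 := by
          by_contra hcon
          exact (Finset.disjoint_left.1 hmn.disjoint_primeFactors) hp
            (Nat.support_factorization n ▸ Finsupp.mem_support_iff.2 hcon)
        rw [this, add_zero]
      · refine Finset.prod_congr rfl fun p hp => ?_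
        rw [Nat.factorization_mul hm hn, Finsupp.add_apply]
        have : m.factorization p = 0 := by
          by_contra hcon
          exact (Finset.disjoint_right.1 hmn.disjoint_primeFactors) hp
            (Nat.support_factorization m ▸ Finsupp.mem_support_iff.2 hcon)
        rw [this, zero_add]
  have hF : (f * (ArithmeticFunction.zeta : ArithmeticFunction ℝ)).IsMultiplicative :=
    hf.mul ArithmeticFunction.isMultiplicative_zeta.natCast
  have h1 : ∀ n : ℕ, (f * (ArithmeticFunction.zeta : ArithmeticFunction ℝ)) n =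
      ∑ a ∈ n.divisors, f a := fun n => ArithmeticFunction.coe_mul_zeta_apply
  have h2 := hF.map_prod (fun p : ℕ => p ^ 2) I (by
    intro p hp q hq hpq
    exact Nat.Coprime.pow 2 2 ((Nat.coprime_primes (hI p hp) (hI q hq)).2 hpq))
  rw [h1] at h2
  have h3 : ∑ a ∈ (∏ p ∈ I, p ^ 2).divisors, ∏ p ∈ a.primeFactors, g p (a.factorization p) =
      ∑ a ∈ (∏ p ∈ I, p ^ 2).divisors, f a := by
    refine Finset.sum_congr rfl fun a ha => ?_
    have : a ≠ 0 := (Nat.pos_of_mem_divisors ha).ne'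
    simp [f, this]
  rw [h3, h2]
  refine Finset.prod_congr rfl fun p hp => ?_
  have hpp := hI p hp
  rw [h1, Nat.divisors_prime_pow hpp]
  simp only [Finset.sum_map, Function.Embedding.coeFn_mk, Finset.sum_range_succ,
    Finset.sum_range_zero, zero_add]
  simp only [f, ArithmeticFunction.coe_mk]
  have hp0 : p ≠ 0 := hpp.ne_zero
  simp [hp0, hpp.primeFactors, Nat.primeFactors_pow, hpp.factorization_self]

/-- the coefficients of the block: a product over the primes -/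
noncomputable def gg (z₀ : ℝ) (p v : ℕ) : ℝ :=
  (if v = 1 then -(ca p : ℝ) else if v = 2 then (p : ℝ) else 0) * ((p : ℝ) ^ v) ^ (-1 - z₀)

lemma rpow_eq_prod {a : ℕ} (ha : a ≠ 0) (s : ℝ) :
    (a : ℝ) ^ s = ∏ p ∈ a.primeFactors, ((p : ℝ) ^ a.factorization p) ^ s := by
  rw [Real.finsetProd_rpow _ _ (fun p _ => by positivity)]
  congr 1
  have h := Nat.prod_factorization_pow_eq_self ha
  conv_lhs => rw [← h]
  rw [Finsupp.prod, Nat.support_factorization]
  push_cast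
  rfl

lemma cc_eq {a : ℕ} (ha : a ≠ 0) (z₀ : ℝ) :
    muc a * (a : ℝ) ^ (-1 - z₀) = ∏ p ∈ a.primeFactors, gg z₀ p (a.factorization p) := by
  unfold muc gg
  rw [rpow_eq_prod ha, ← Finset.prod_mul_distrib]

/-- the full block polynomial is the product of the inverse Euler factors -/
lemma full_block (I : Finset ℕ) (hI : ∀ p ∈ I, p.Prime) (z₀ : ℝ) (ω : ℕ → ℝ) :
    ∑ a ∈ (∏ p ∈ I, p ^ 2).divisors, muc a * (a : ℝ) ^ (-1 - z₀) * ffx ω a =
      ∏ p ∈ I, Np p z₀ (ω p) := by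
  have h1 : ∑ a ∈ (∏ p ∈ I, p ^ 2).divisors, muc a * (a : ℝ) ^ (-1 - z₀) * ffx ω a =
      ∑ a ∈ (∏ p ∈ I, p ^ 2).divisors, ∏ p ∈ a.primeFactors,
        (fun p v => gg z₀ p v * ω p ^ v) p (a.factorization p) := by
    refine Finset.sum_congr rfl fun a ha => ?_
    rw [cc_eq (Nat.pos_of_mem_divisors ha).ne', ffx, ← Finset.prod_mul_distrib]
  rw [h1, sum_divisors_sq I hI (fun p v => gg z₀ p v * ω p ^ v)]
  refine Finset.prod_congr rfl fun p hp => ?_
  have hp0 : (0 : ℝ) < p := by exact_mod_cast (hI p hp).pos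
  unfold gg Np
  have h2 : ((p : ℝ) ^ 2) ^ (-1 - z₀) = (p : ℝ) ^ (-2 - 2 * z₀) := by
    rw [← Real.rpow_natCast, ← Real.rpow_mul hp0.le]
    congr 1
    push_cast
    ring
  simp only [if_true, pow_one, OfNat.ofNat_ne_one, if_false]
  rw [h2]
  ring

/-- the majorant coefficients -/
noncomputable def hh (p v : ℕ) : ℝ :=
  if v = 1 then 6 * (p : ℝ) ^ (-(1 / 2) : ℝ) else if v = 2 then 9 * ((p : ℝ) ^ (-(1 / 2) : ℝ)) ^ 2
    else 0

lemma hh_nonneg (p v : ℕ) : 0 ≤ hh p v := by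
  unfold hh
  split_ifs <;> positivity

/-- the majorant block polynomial -/
lemma maj_block (I : Finset ℕ) (hI : ∀ p ∈ I, p.Prime) (ω : ℕ → ℝ) :
    ∑ a ∈ (∏ p ∈ I, p ^ 2).divisors, (∏ p ∈ a.primeFactors, hh p (a.factorization p)) * ffx ω a =
      ∏ p ∈ I, (1 + 3 * (p : ℝ) ^ (-(1 / 2) : ℝ) * ω p) ^ 2 := by
  have h1 : ∑ a ∈ (∏ p ∈ I, p ^ 2).divisors,
      (∏ p ∈ a.primeFactors, hh p (a.factorization p)) * ffx ω a =
      ∑ a ∈ (∏ p ∈ I, p ^ 2).divisors, ∏ p ∈ a.primeFactors,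
        (fun p v => hh p v * ω p ^ v) p (a.factorization p) := by
    refine Finset.sum_congr rfl fun a ha => ?_
    rw [ffx, ← Finset.prod_mul_distrib]
  rw [h1, sum_divisors_sq I hI (fun p v => hh p v * ω p ^ v)]
  refine Finset.prod_congr rfl fun p hp => ?_
  unfold hh
  simp only [if_true, pow_one, OfNat.ofNat_ne_one, if_false]
  ring

/-- coefficient bound -/
lemma abs_gg_le (hc : StCoef) {p : ℕ} (hp : p.Prime) {z₀ η : ℝ} (hη : (p : ℝ) ^ (-z₀) ≤ η) (v : ℕ) :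
    |gg z₀ p v| ≤ (η / 3) ^ v * hh p v := by
  have hp0 : (0 : ℝ) < p := by exact_mod_cast hp.pos
  have hpz : 0 < (p : ℝ) ^ (-z₀) := Real.rpow_pos_of_pos hp0 _
  have hη0 : 0 ≤ η := hpz.le.trans hη
  unfold gg hh
  by_cases h1 : v = 1
  · subst h1
    simp only [if_true, pow_one]
    rw [abs_mul, abs_neg, abs_of_pos (Real.rpow_pos_of_pos hp0 _)]
    have hca : |(ca p : ℝ)| ≤ 2 * (p : ℝ) ^ (1 / 2 : ℝ) := by
      have := abs_lam_le hc hp
      unfold lam at this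
      rw [abs_div, abs_of_nonneg (Real.sqrt_nonneg _), div_le_iff₀ (Real.sqrt_pos.2 hp0),
        Real.sqrt_eq_rpow] at this
      exact this
    have e : (p : ℝ) ^ (-1 - z₀) = (p : ℝ) ^ (-(1 / 2) : ℝ) * (p : ℝ) ^ (-(1 / 2) : ℝ) *
        (p : ℝ) ^ (-z₀) := by
      rw [← Real.rpow_add hp0, ← Real.rpow_add hp0]; congr 1; ring
    have e2 : (p : ℝ) ^ (1 / 2 : ℝ) * (p : ℝ) ^ (-(1 / 2) : ℝ) = 1 := by
      rw [← Real.rpow_add hp0]; norm_num
    rw [e]
    calc |(ca p : ℝ)| * ((p : ℝ) ^ (-(1 / 2) : ℝ) * (p : ℝ) ^ (-(1 / 2) : ℝ) * (p : ℝ) ^ (-z₀))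
        ≤ (2 * (p : ℝ) ^ (1 / 2 : ℝ)) * ((p : ℝ) ^ (-(1 / 2) : ℝ) * (p : ℝ) ^ (-(1 / 2) : ℝ) * η) := by
          gcongr
      _ = 2 * ((p : ℝ) ^ (1 / 2 : ℝ) * (p : ℝ) ^ (-(1 / 2) : ℝ)) * (p : ℝ) ^ (-(1 / 2) : ℝ) * η := by
          ring
      _ = η / 3 * (6 * (p : ℝ) ^ (-(1 / 2) : ℝ)) := by rw [e2]; ring
      _ ≤ _ := le_rfl
  · by_cases h2 : v = 2
    · subst h2
      simp only [OfNat.ofNat_ne_one, if_false, if_true]
      have e : (p : ℝ) * ((p : ℝ) ^ 2) ^ (-1 - z₀) = ((p : ℝ) ^ (-(1 / 2) : ℝ)) ^ 2 *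
          ((p : ℝ) ^ (-z₀)) ^ 2 := by
        rw [← Real.rpow_natCast, ← Real.rpow_natCast, ← Real.rpow_natCast, ← Real.rpow_mul hp0.le,
          ← Real.rpow_mul hp0.le, ← Real.rpow_mul hp0.le, ← Real.rpow_add hp0]
        nth_rw 1 [← Real.rpow_one (p : ℝ)]
        rw [← Real.rpow_add hp0]
        congr 1
        push_cast
        ring
      rw [e, abs_of_nonneg (by positivity)]
      calc ((p : ℝ) ^ (-(1 / 2) : ℝ)) ^ 2 * ((p : ℝ) ^ (-z₀)) ^ 2
          ≤ ((p : ℝ) ^ (-(1 / 2) : ℝ)) ^ 2 * η ^ 2 := by gcongr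
        _ = (η / 3) ^ 2 * (9 * ((p : ℝ) ^ (-(1 / 2) : ℝ)) ^ 2) := by ring
    · simp [h1, h2]

lemma abs_cc_le (hc : StCoef) (I : Finset ℕ) {z₀ η : ℝ}
    (hη : ∀ p ∈ I, (p : ℝ) ^ (-z₀) ≤ η) {a : ℕ} (ha : a ≠ 0) (haI : a.primeFactors ⊆ I) :
    |muc a * (a : ℝ) ^ (-1 - z₀)| ≤ (η / 3) ^ (ArithmeticFunction.cardFactors a) *
      ∏ p ∈ a.primeFactors, hh p (a.factorization p) := by
  rw [cc_eq ha, Finset.abs_prod]
  have h1 : (η / 3) ^ (ArithmeticFunction.cardFactors a) =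
      ∏ p ∈ a.primeFactors, (η / 3) ^ (a.factorization p) := by
    rw [Finset.prod_pow_eq_pow_sum, ArithmeticFunction.cardFactors_eq_sum_factorization]
    rfl
  rw [h1, ← Finset.prod_mul_distrib]
  refine Finset.prod_le_prod (fun _ _ => abs_nonneg _) fun p hp => ?_
  exact abs_gg_le hc (Nat.prime_of_mem_primeFactors hp) (hη p (haI hp)) _

end P004.H293
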