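import Mathlib

/-!
# P004: upper bounds for sums over primes (Chebyshev)
-/

open Finset Real

namespace P004.H293

/-- primes in a dyadic class -/
lemma sum_dyadic {S : Finset ℕ} (hS : ∀ p ∈ S, p.Prime) {j : ℕ} (hj : 1 ≤ j)
    (hSj : ∀ p ∈ S, Nat.log 2 p = j) : ∑ p ∈ S, (1 : ℝ) / p ≤ 4 / j := by
  have hj' : (1 : ℝ) ≤ j := by exact_mod_cast hj
  have hl2 : 0 < Real.log 2 := Real.log_pos (by norm_num)
  have h2j : (0 : ℝ) < 2 ^ j := by positivity
  have key : ∀ p ∈ S, (1 : ℝ) / p ≤ Real.log p / (2 ^ j * (j * Real.log 2)) := by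
    intro p hp
    have hpp := hS p hp
    have h1 : (2 : ℝ) ^ j ≤ p := by
      have := Nat.pow_log_le_self 2 hpp.ne_zero
      rw [hSj p hp] at this
      exact_mod_cast this
    have h2 : (j : ℝ) * Real.log 2 ≤ Real.log p := by
      rw [← Real.log_pow]
      exact Real.log_le_log h2j h1
    have h3 : (0 : ℝ) < p := by exact_mod_cast hpp.pos
    rw [div_le_div_iff₀ h3 (by positivity)]
    rw [one_mul, mul_comm (Real.log p)]
    exact mul_le_mul h1 h2 (by positivity) h3.le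
  have hth : ∑ p ∈ S, Real.log p ≤ Real.log 4 * (2 ^ (j + 1) : ℝ) := by
    refine le_trans ?_ (Chebyshev.theta_le_log4_mul_x (by positivity))
    unfold Chebyshev.theta
    refine Finset.sum_le_sum_of_subset_of_nonneg ?_ ?_
    · intro p hp
      have hpp := hS p hp
      rw [mem_filter, mem_Ioc]
      refine ⟨⟨hpp.pos, ?_⟩, hpp⟩
      have := Nat.lt_pow_succ_log_self (b := 2) (by norm_num) p
      rw [hSj p hp] at this
      apply Nat.le_floor
      exact_mod_cast this.le
    · intro p _ _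
      exact Real.log_natCast_nonneg p
  calc ∑ p ∈ S, (1 : ℝ) / p ≤ ∑ p ∈ S, Real.log p / (2 ^ j * (j * Real.log 2)) :=
        Finset.sum_le_sum key
    _ = (∑ p ∈ S, Real.log p) / (2 ^ j * (j * Real.log 2)) := by rw [Finset.sum_div]
    _ ≤ (Real.log 4 * (2 ^ (j + 1) : ℝ)) / (2 ^ j * (j * Real.log 2)) := by gcongr
    _ = 4 / j := by
        have : Real.log 4 = 2 * Real.log 2 := by
          rw [show (4 : ℝ) = 2 ^ 2 by norm_num, Real.log_pow]; norm_num
        rw [this, pow_succ]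
        field_simp
        norm_num

/-- general dyadic bound: a weight bounded by `c j` on the dyadic class `j` -/
lemma sum_weight {S : Finset ℕ} (hS : ∀ p ∈ S, p.Prime) (φ : ℕ → ℝ) (c : ℕ → ℝ)
    (hc : ∀ p ∈ S, φ p ≤ c (Nat.log 2 p)) (hc0 : ∀ j, 0 ≤ c j) (J : Finset ℕ)
    (hJ : ∀ p ∈ S, Nat.log 2 p ∈ J) (hJ1 : ∀ j ∈ J, 1 ≤ j) :
    ∑ p ∈ S, φ p / p ≤ ∑ j ∈ J, c j * (4 / j) := by
  classical
  rw [← Finset.sum_fiberwise_of_maps_to hJ]
  refine Finset.sum_le_sum fun j hj => ?_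
  calc ∑ p ∈ S with Nat.log 2 p = j, φ p / p ≤ ∑ p ∈ S with Nat.log 2 p = j, c j * (1 / p) := by
        refine Finset.sum_le_sum fun p hp => ?_
        rw [mem_filter] at hp
        have := hc p hp.1
        rw [hp.2] at this
        rw [mul_one_div]
        gcongr
    _ = c j * ∑ p ∈ S with Nat.log 2 p = j, (1 : ℝ) / p := by rw [Finset.mul_sum]
    _ ≤ c j * (4 / j) := by
        refine mul_le_mul_of_nonneg_left ?_ (hc0 j)
        exact sum_dyadic (fun p hp => hS p (mem_filter.1 hp).1) (hJ1 j hj)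
          (fun p hp => (mem_filter.1 hp).2)

/-- harmonic sums -/
lemma sum_Icc_inv_le {a b : ℕ} (ha : 1 ≤ a) (hab : a ≤ b) :
    ∑ j ∈ Icc a b, (1 : ℝ) / j ≤ 1 / a + Real.log (b / a) := by
  induction b, hab using Nat.le_induction with
  | base =>
    have : (a : ℝ) ≠ 0 := by positivity
    simp [this]
  | succ b hab ih =>
    rw [Finset.sum_Icc_succ_top (by omega)]
    have ha' : (0 : ℝ) < a := by exact_mod_cast ha
    have hb' : (0 : ℝ) < b := by exact_mod_cast (lt_of_lt_of_le ha hab)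
    have h1 : Real.log ((b + 1 : ℕ) / a) = Real.log (b / a) + Real.log ((b + 1) / b) := by
      rw [← Real.log_mul (by positivity) (by positivity)]
      congr 1
      push_cast
      field_simp
    have h2 : 1 - ((b + 1 : ℝ) / b)⁻¹ ≤ Real.log ((b + 1) / b) :=
      Real.one_sub_inv_le_log_of_pos (by positivity)
    have h3 : 1 - ((b + 1 : ℝ) / b)⁻¹ = 1 / ((b + 1 : ℕ) : ℝ) := by
      push_cast
      field_simp
      ring
    rw [h1]
    linarith [h3 ▸ h2]

/-- `∑ 1/p` over `y < p ≤ z` -/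
theorem sum_inv_range {S : Finset ℕ} (hS : ∀ p ∈ S, p.Prime) {y z : ℝ} (hy : 2 ≤ y) (hyz : y ≤ z)
    (h1 : ∀ p ∈ S, y ≤ p) (h2 : ∀ p ∈ S, (p : ℝ) ≤ z) :
    ∑ p ∈ S, (1 : ℝ) / p ≤ 8 * (1 + Real.log (Real.log z / Real.log y)) := by
  classical
  have hl2 : 0 < Real.log 2 := Real.log_pos (by norm_num)
  set a := Nat.log 2 ⌊y⌋₊ with ha_def
  set b := Nat.log 2 ⌊z⌋₊ with hb_def
  have hfy : 2 ≤ ⌊y⌋₊ := Nat.le_floor (by exact_mod_cast hy)
  have hfz : ⌊y⌋₊ ≤ ⌊z⌋₊ := Nat.floor_le_floor hyz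
  have ha : 1 ≤ a := Nat.log_pos (by norm_num) hfy
  have hab : a ≤ b := Nat.log_mono_right hfz
  have hJ : ∀ p ∈ S, Nat.log 2 p ∈ Icc a b := by
    intro p hp
    rw [mem_Icc]
    refine ⟨Nat.log_mono_right ?_, Nat.log_mono_right ?_⟩
    · have : (⌊y⌋₊ : ℝ) ≤ p := le_trans (Nat.floor_le (by linarith)) (h1 p hp)
      exact_mod_cast this
    · exact Nat.le_floor (h2 p hp)
  have hmain := sum_weight hS (fun _ => 1) (fun _ => 1) (fun _ _ => le_rfl) (fun _ => zero_le_one)
    (Icc a b) hJ (fun j hj => le_trans ha (mem_Icc.1 hj).1)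
  have h3 : ∑ j ∈ Icc a b, (1 : ℝ) * (4 / j) ≤ 4 * (1 / a + Real.log (b / a)) := by
    rw [show ∑ j ∈ Icc a b, (1 : ℝ) * (4 / j) = 4 * ∑ j ∈ Icc a b, (1 : ℝ) / j by
      rw [Finset.mul_sum]; refine Finset.sum_congr rfl fun j _ => by ring]
    have := sum_Icc_inv_le ha hab
    linarith
  have ha' : (1 : ℝ) ≤ a := by exact_mod_cast ha
  have hb' : (1 : ℝ) ≤ b := by exact_mod_cast le_trans ha hab
  -- `log y ≤ 2 a log 2`, `b log 2 ≤ log z`
  have hly : Real.log y ≤ 2 * a * Real.log 2 := by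
    have : y ≤ 2 ^ (a + 1) := by
      have h5 := Nat.lt_pow_succ_log_self (b := 2) (by norm_num) ⌊y⌋₊
      rw [← ha_def] at h5
      have h6 := Nat.lt_floor_add_one y
      have h7 : ((⌊y⌋₊ : ℝ)) + 1 ≤ 2 ^ (a + 1) := by exact_mod_cast h5
      linarith
    calc Real.log y ≤ Real.log (2 ^ (a + 1)) := Real.log_le_log (by linarith) this
      _ = (a + 1) * Real.log 2 := by rw [Real.log_pow]; push_cast; ring
      _ ≤ 2 * a * Real.log 2 := by nlinarith
  have hlz : b * Real.log 2 ≤ Real.log z := by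
    rw [← Real.log_pow]
    apply Real.log_le_log (by positivity)
    have h5 := Nat.pow_log_le_self 2 (x := ⌊z⌋₊) (by omega)
    rw [← hb_def] at h5
    have h6 : ((2 : ℝ) ^ b) ≤ (⌊z⌋₊ : ℝ) := by exact_mod_cast h5
    exact h6.trans (Nat.floor_le (by linarith))
  have hly0 : 0 < Real.log y := Real.log_pos (by linarith)
  have hq : (b : ℝ) / a ≤ 2 * (Real.log z / Real.log y) := by
    rw [div_le_iff₀ (by positivity), mul_assoc, div_mul_eq_mul_div, mul_div_assoc', le_div_iff₀ hly0]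
    have h8 : (b : ℝ) * Real.log y ≤ b * (2 * a * Real.log 2) := by gcongr
    have h9 : (b : ℝ) * Real.log 2 * (2 * a) ≤ Real.log z * (2 * a) := by gcongr
    nlinarith
  have hlog : Real.log (b / a) ≤ Real.log 2 + Real.log (Real.log z / Real.log y) := by
    have hz : 0 < Real.log z := Real.log_pos (by linarith)
    rw [← Real.log_mul (by norm_num) (by positivity)]
    exact Real.log_le_log (by positivity) hq
  have hR : 0 ≤ Real.log (Real.log z / Real.log y) := by
    apply Real.log_nonneg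
    rw [le_div_iff₀ hly0, one_mul]
    exact Real.log_le_log (by linarith) hyz
  have hl2' : Real.log 2 ≤ 1 := by linarith [Real.log_two_lt_d9]
  have h1a : (1 : ℝ) / a ≤ 1 := by rw [div_le_one (by positivity)]; exact ha'
  linarith

/-- `∑ p^{-1-σ}` over `p ≥ y` -/
theorem sum_rpow_tail {S : Finset ℕ} (hS : ∀ p ∈ S, p.Prime) {y σ : ℝ} (hy : 2 ≤ y) (hσ : 0 < σ)
    (hσ1 : σ ≤ 1) (h1 : ∀ p ∈ S, y ≤ p) :
    ∑ p ∈ S, (p : ℝ) ^ (-1 - σ) ≤ 64 * y ^ (-σ) / (σ * Real.log y) := by
  classical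
  have hl2 : 0 < Real.log 2 := Real.log_pos (by norm_num)
  set a := Nat.log 2 ⌊y⌋₊ with ha_def
  have hfy : 2 ≤ ⌊y⌋₊ := Nat.le_floor (by exact_mod_cast hy)
  have ha : 1 ≤ a := Nat.log_pos (by norm_num) hfy
  have ha' : (1 : ℝ) ≤ a := by exact_mod_cast ha
  have hly0 : 0 < Real.log y := Real.log_pos (by linarith)
  obtain ⟨b, hb⟩ : ∃ b, ∀ p ∈ S, Nat.log 2 p ≤ b :=
    ⟨S.sup (fun p => Nat.log 2 p), fun p hp => Finset.le_sup (f := fun p => Nat.log 2 p) hp⟩
  have hJ : ∀ p ∈ S, Nat.log 2 p ∈ Icc a b := by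
    intro p hp
    rw [mem_Icc]
    refine ⟨Nat.log_mono_right ?_, hb p hp⟩
    have : (⌊y⌋₊ : ℝ) ≤ p := le_trans (Nat.floor_le (by linarith)) (h1 p hp)
    exact_mod_cast this
  set q : ℝ := (2 : ℝ) ^ (-σ) with hq_def
  have hq0 : 0 < q := by positivity
  have hq1 : q ≤ 1 - σ / 2 := by
    -- convexity
    have : (2 : ℝ) ^ (-σ) = (1 + (-1 / 2)) ^ σ := by
      rw [show (1 + (-1 / 2) : ℝ) = 2⁻¹ by norm_num, Real.inv_rpow (by norm_num),
        Real.rpow_neg (by norm_num)]
    rw [hq_def, this]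
    have := rpow_one_add_le_one_add_mul_self (s := (-1 / 2 : ℝ)) (by norm_num) hσ.le hσ1
    linarith
  have hterm : ∀ p ∈ S, (p : ℝ) ^ (-σ) ≤ q ^ (Nat.log 2 p) := by
    intro p hp
    have hpp := hS p hp
    rw [hq_def, ← Real.rpow_natCast, ← Real.rpow_mul (by norm_num), mul_comm,
      Real.rpow_mul (by norm_num)]
    apply Real.rpow_le_rpow_of_nonpos (by positivity) _ (by linarith)
    rw [Real.rpow_natCast]
    exact_mod_cast Nat.pow_log_le_self 2 hpp.ne_zero
  have hmain := sum_weight hS (fun p => (p : ℝ) ^ (-σ)) (fun j => q ^ j) hterm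
    (fun j => by positivity) (Icc a b) hJ (fun j hj => le_trans ha (mem_Icc.1 hj).1)
  have heq : ∑ p ∈ S, (p : ℝ) ^ (-1 - σ) = ∑ p ∈ S, (p : ℝ) ^ (-σ) / p := by
    refine Finset.sum_congr rfl fun p hp => ?_
    have hp0 : (0 : ℝ) < p := by exact_mod_cast (hS p hp).pos
    rw [show (-1 - σ) = -σ - 1 by ring, Real.rpow_sub_one hp0.ne']
  rw [heq]
  refine hmain.trans ?_
  have h3 : ∑ j ∈ Icc a b, q ^ j * (4 / j) ≤ (4 / a) * ∑ j ∈ Icc a b, q ^ j := by
    rw [Finset.mul_sum]
    refine Finset.sum_le_sum fun j hj => ?_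
    have : (a : ℝ) ≤ j := by exact_mod_cast (mem_Icc.1 hj).1
    rw [mul_comm]
    gcongr
  have h4 : ∑ j ∈ Icc a b, q ^ j ≤ q ^ a / (1 - q) := by
    have hq1' : q < 1 := by linarith
    have hgeo : ∀ b, ∑ j ∈ Icc a b, q ^ j ≤ q ^ a / (1 - q) := by
      intro b
      have h5 : ∑ j ∈ Icc a b, q ^ j = ∑ j ∈ Finset.range (b + 1 - a), q ^ (a + j) := by
        rw [← Finset.Ico_add_one_right_eq_Icc, Finset.sum_Ico_eq_sum_range]
      rw [h5]
      simp_rw [pow_add]
      rw [← Finset.mul_sum]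
      rw [div_eq_mul_inv]
      refine mul_le_mul_of_nonneg_left ?_ (by positivity)
      rw [← tsum_geometric_of_lt_one hq0.le hq1']
      exact Summable.sum_le_tsum _ (fun _ _ => by positivity)
        (summable_geometric_of_lt_one hq0.le hq1')
    exact hgeo b
  have h5 : q ^ a ≤ 2 * y ^ (-σ) := by
    have h6 : y / 2 ≤ 2 ^ a := by
      have h5 := Nat.lt_pow_succ_log_self (b := 2) (by norm_num) ⌊y⌋₊
      rw [← ha_def] at h5
      have h6 := Nat.lt_floor_add_one y
      have h7 : ((⌊y⌋₊ : ℝ)) + 1 ≤ 2 ^ (a + 1) := by exact_mod_cast h5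
      rw [pow_succ] at h7
      linarith
    have h7 : q ^ a = ((2 : ℝ) ^ a) ^ (-σ) := by
      rw [hq_def, ← Real.rpow_natCast, ← Real.rpow_mul (by norm_num), mul_comm,
        Real.rpow_mul (by norm_num), Real.rpow_natCast]
    rw [h7]
    calc ((2 : ℝ) ^ a) ^ (-σ) ≤ (y / 2) ^ (-σ) :=
          Real.rpow_le_rpow_of_nonpos (by positivity) h6 (by linarith)
      _ = y ^ (-σ) * 2 ^ σ := by
          rw [Real.div_rpow (by linarith) (by norm_num), div_eq_mul_inv,
            Real.rpow_neg (by norm_num : (0:ℝ) ≤ 2), inv_inv]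
      _ ≤ y ^ (-σ) * 2 := by
          gcongr
          calc (2 : ℝ) ^ σ ≤ 2 ^ (1 : ℝ) := Real.rpow_le_rpow_of_exponent_le (by norm_num) hσ1
            _ = 2 := by simp
      _ = 2 * y ^ (-σ) := by ring
  have h6 : q ^ a / (1 - q) ≤ (2 * y ^ (-σ)) / (σ / 2) := by
    gcongr
    linarith
  have hly : Real.log y ≤ 2 * a * Real.log 2 := by
    have : y ≤ 2 ^ (a + 1) := by
      have h5 := Nat.lt_pow_succ_log_self (b := 2) (by norm_num) ⌊y⌋₊
      rw [← ha_def] at h5
      have h6 := Nat.lt_floor_add_one y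
      have h7 : ((⌊y⌋₊ : ℝ)) + 1 ≤ 2 ^ (a + 1) := by exact_mod_cast h5
      linarith
    calc Real.log y ≤ Real.log (2 ^ (a + 1)) := Real.log_le_log (by linarith) this
      _ = (a + 1) * Real.log 2 := by rw [Real.log_pow]; push_cast; ring
      _ ≤ 2 * a * Real.log 2 := by nlinarith
  have hl2' : Real.log 2 ≤ 1 := by linarith [Real.log_two_lt_d9]
  have h7 : (4 : ℝ) / a ≤ 8 / Real.log y := by
    rw [div_le_div_iff₀ (by positivity) hly0]
    nlinarith
  have hyσ : 0 < y ^ (-σ) := Real.rpow_pos_of_pos (by linarith) _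
  calc ∑ j ∈ Icc a b, q ^ j * (4 / j) ≤ (4 / a) * ∑ j ∈ Icc a b, q ^ j := h3
    _ ≤ (8 / Real.log y) * ((2 * y ^ (-σ)) / (σ / 2)) := by
        refine mul_le_mul h7 (h4.trans h6) (Finset.sum_nonneg fun _ _ => by positivity)
          (by positivity)
    _ ≤ 64 * y ^ (-σ) / (σ * Real.log y) := by
        rw [div_div_eq_mul_div, div_mul_div_comm, div_le_div_iff₀ (by positivity) (by positivity)]
        have : 0 < y ^ (-σ) * (Real.log y * σ) := by positivity
        nlinarith

/-- `∑ log p / p` over `p ≤ x` -/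
theorem sum_log_div {S : Finset ℕ} (hS : ∀ p ∈ S, p.Prime) {x : ℝ} (hx : 2 ≤ x)
    (h1 : ∀ p ∈ S, (p : ℝ) ≤ x) : ∑ p ∈ S, Real.log p / p ≤ 8 * Real.log x := by
  classical
  have hl2 : 0 < Real.log 2 := Real.log_pos (by norm_num)
  set b := Nat.log 2 ⌊x⌋₊ with hb_def
  have hfx : 2 ≤ ⌊x⌋₊ := Nat.le_floor (by exact_mod_cast hx)
  have hJ : ∀ p ∈ S, Nat.log 2 p ∈ Icc 1 b := by
    intro p hp
    rw [mem_Icc]
    exact ⟨Nat.log_pos (by norm_num) (hS p hp).two_le,
      Nat.log_mono_right (Nat.le_floor (h1 p hp))⟩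
  have hterm : ∀ p ∈ S, Real.log p ≤ ((Nat.log 2 p : ℕ) + 1 : ℝ) * Real.log 2 := by
    intro p hp
    have h5 := Nat.lt_pow_succ_log_self (b := 2) (by norm_num) p
    have h6 : (p : ℝ) ≤ 2 ^ (Nat.log 2 p + 1) := by exact_mod_cast h5.le
    calc Real.log p ≤ Real.log (2 ^ (Nat.log 2 p + 1)) :=
          Real.log_le_log (by exact_mod_cast (hS p hp).pos) h6
      _ = _ := by rw [Real.log_pow]; push_cast; ring
  have hmain := sum_weight hS (fun p => Real.log p) (fun j => (j + 1) * Real.log 2) hterm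
    (fun j => by positivity) (Icc 1 b) hJ (fun j hj => (mem_Icc.1 hj).1)
  refine hmain.trans ?_
  have h3 : ∑ j ∈ Icc 1 b, ((j : ℝ) + 1) * Real.log 2 * (4 / j) ≤ ∑ j ∈ Icc 1 b, 8 * Real.log 2 := by
    refine Finset.sum_le_sum fun j hj => ?_
    have hj1 : (1 : ℝ) ≤ j := by exact_mod_cast (mem_Icc.1 hj).1
    rw [mul_div_assoc', div_le_iff₀ (by positivity)]
    nlinarith
  have h4 : (b : ℝ) * Real.log 2 ≤ Real.log x := by
    rw [← Real.log_pow]
    apply Real.log_le_log (by positivity)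
    have h5 := Nat.pow_log_le_self 2 (x := ⌊x⌋₊) (by omega)
    rw [← hb_def] at h5
    have h6 : ((2 : ℝ) ^ b) ≤ (⌊x⌋₊ : ℝ) := by exact_mod_cast h5
    exact h6.trans (Nat.floor_le (by linarith))
  rw [Finset.sum_const, Nat.card_Icc, nsmul_eq_mul] at h3
  have : (b + 1 - 1 : ℕ) = b := by omega
  rw [this] at h3
  linarith

/-- `∑ p^{-1-σ}` over `p ≥ y` -/
theorem sum_rpow_tail' {S : Finset ℕ} (hS : ∀ p ∈ S, p.Prime) {y σ : ℝ} (hy : 2 ≤ y) (hσ : 0 < σ)
    (hσ1 : σ ≤ 1) (h1 : ∀ p ∈ S, y ≤ p) :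
    ∑ p ∈ S, (p : ℝ) ^ (-1 - σ) ≤
      264 * Real.exp (-σ * Real.log y) * (1 + Real.log (1 + 1 / (σ * Real.log y))) := by
  classical
  have hly0 : 0 < Real.log y := Real.log_pos (by linarith)
  have hy0 : 0 < y := by linarith
  have hexp : Real.exp (-σ * Real.log y) = y ^ (-σ) := by
    rw [Real.rpow_def_of_pos hy0, mul_comm]
  have hlog0 : 0 ≤ Real.log (1 + 1 / (σ * Real.log y)) := by
    apply Real.log_nonneg
    have : 0 ≤ 1 / (σ * Real.log y) := by positivity
    linarith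
  have hyσ : 0 < y ^ (-σ) := Real.rpow_pos_of_pos hy0 _
  rcases le_or_gt 1 (σ * Real.log y) with h | h
  · have h2 := sum_rpow_tail hS hy hσ hσ1 h1
    refine h2.trans ?_
    rw [hexp]
    calc 64 * y ^ (-σ) / (σ * Real.log y) ≤ 64 * y ^ (-σ) / 1 := by gcongr
      _ ≤ 264 * y ^ (-σ) * (1 + 0) := by rw [div_one]; nlinarith
      _ ≤ _ := by gcongr
  · -- split at `z = exp (1/σ)`
    set z : ℝ := Real.exp (1 / σ) with hz
    have hzlog : Real.log z = 1 / σ := Real.log_exp _
    have hyz : y ≤ z := by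
      rw [hz, ← Real.exp_log hy0]
      apply Real.exp_le_exp.2
      rw [le_div_iff₀ hσ]
      linarith [mul_comm σ (Real.log y)]
    have hsplit := Finset.sum_filter_add_sum_filter_not S (fun p : ℕ => (p : ℝ) ≤ z)
      (fun p => (p : ℝ) ^ (-1 - σ))
    rw [← hsplit]
    have hA : ∑ p ∈ S.filter (fun p : ℕ => (p : ℝ) ≤ z), (p : ℝ) ^ (-1 - σ) ≤
        y ^ (-σ) * (8 * (1 + Real.log (1 / (σ * Real.log y)))) := by
      have h3 := sum_inv_range (S := S.filter (fun p : ℕ => (p : ℝ) ≤ z))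
        (fun p hp => hS p (mem_filter.1 hp).1) hy hyz (fun p hp => h1 p (mem_filter.1 hp).1)
        (fun p hp => (mem_filter.1 hp).2)
      rw [hzlog, div_div] at h3
      refine le_trans ?_ (mul_le_mul_of_nonneg_left h3 hyσ.le)
      rw [Finset.mul_sum]
      refine Finset.sum_le_sum fun p hp => ?_
      have hp' := mem_filter.1 hp
      have hp0 : (0 : ℝ) < p := by exact_mod_cast (hS p hp'.1).pos
      rw [show (-1 - σ) = -σ - 1 by ring, Real.rpow_sub_one hp0.ne', div_eq_mul_one_div]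
      exact mul_le_mul_of_nonneg_right
        (Real.rpow_le_rpow_of_nonpos hy0 (h1 p hp'.1) (neg_nonpos.2 hσ.le)) (by positivity)
    have hB : ∑ p ∈ S.filter (fun p : ℕ => ¬ (p : ℝ) ≤ z), (p : ℝ) ^ (-1 - σ) ≤ 64 := by
      have h3 := sum_rpow_tail (S := S.filter (fun p : ℕ => ¬ (p : ℝ) ≤ z)) (y := z)
        (fun p hp => hS p (mem_filter.1 hp).1) (by linarith) hσ hσ1
        (fun p hp => (not_le.1 (mem_filter.1 hp).2).le)
      rw [hzlog, mul_one_div_cancel hσ.ne', div_one] at h3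
      refine h3.trans ?_
      have : z ^ (-σ) ≤ 1 := Real.rpow_le_one_of_one_le_of_nonpos (by linarith) (by linarith)
      linarith
    have hy1 : (1 : ℝ) ≤ 4 * y ^ (-σ) := by
      rw [← hexp]
      have h5 : Real.exp (-1) ≤ Real.exp (-σ * Real.log y) := by
        apply Real.exp_le_exp.2; linarith
      have h6 : (1 : ℝ) / 4 ≤ Real.exp (-1) := by
        rw [Real.exp_neg, one_div]
        exact inv_anti₀ (Real.exp_pos 1) (by linarith [Real.exp_one_lt_d9])
      linarith
    have hl : Real.log (1 / (σ * Real.log y)) ≤ Real.log (1 + 1 / (σ * Real.log y)) := by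
      apply Real.log_le_log (by positivity)
      linarith
    rw [hexp]
    calc _ ≤ y ^ (-σ) * (8 * (1 + Real.log (1 / (σ * Real.log y)))) + 64 := add_le_add hA hB
      _ ≤ y ^ (-σ) * (8 * (1 + Real.log (1 + 1 / (σ * Real.log y)))) + 256 * y ^ (-σ) * 1 := by
          have := mul_le_mul_of_nonneg_left hl hyσ.le
          nlinarith
      _ ≤ 264 * y ^ (-σ) * (1 + Real.log (1 + 1 / (σ * Real.log y))) := by
          have := mul_nonneg hyσ.le hlog0
          nlinarith

/-- `∑ min(1, t log p)/p` over `p ≤ y` -/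
theorem sum_min_log {S : Finset ℕ} (hS : ∀ p ∈ S, p.Prime) {t y : ℝ} (ht : 0 ≤ t) (hy : 2 ≤ y)
    (h1 : ∀ p ∈ S, (p : ℝ) ≤ y) :
    ∑ p ∈ S, min 1 (t * Real.log p) / p ≤ 32 * (1 + Real.log (1 + t * Real.log y)) := by
  classical
  have hly0 : 0 < Real.log y := Real.log_pos (by linarith)
  have hy0 : 0 < y := by linarith
  have hlog0 : 0 ≤ Real.log (1 + t * Real.log y) := by
    apply Real.log_nonneg
    have : 0 ≤ t * Real.log y := by positivity
    linarith
  rcases le_or_gt (t * Real.log y) 1 with h | h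
  · have h2 := sum_log_div hS hy h1
    calc ∑ p ∈ S, min 1 (t * Real.log p) / p ≤ ∑ p ∈ S, t * (Real.log p / p) := by
          refine Finset.sum_le_sum fun p hp => ?_
          rw [mul_div_assoc']
          gcongr
          exact min_le_right _ _
      _ = t * ∑ p ∈ S, Real.log p / p := by rw [Finset.mul_sum]
      _ ≤ t * (8 * Real.log y) := by gcongr
      _ ≤ 8 := by linarith
      _ ≤ _ := by linarith
  · have ht0 : 0 < t := by
      by_contra hcon
      have : t = 0 := le_antisymm (not_lt.1 hcon) ht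
      rw [this] at h; simp at h; linarith
    -- split at `z = max 2 (exp (1/t))`
    have hl2 : 0 < Real.log 2 := Real.log_pos (by norm_num)
    set z : ℝ := max 2 (Real.exp (1 / t)) with hz
    have hz2 : 2 ≤ z := le_max_left _ _
    have hzy : z ≤ y := by
      refine max_le hy ?_
      rw [← Real.exp_log hy0]
      apply Real.exp_le_exp.2
      rw [div_le_iff₀ ht0]
      linarith [mul_comm t (Real.log y)]
    have hlz1 : 1 / t ≤ Real.log z := by
      rw [Real.le_log_iff_exp_le (by linarith)]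
      exact le_max_right _ _
    have hlz0 : 0 < Real.log z := Real.log_pos (by linarith)
    have hsplit := Finset.sum_filter_add_sum_filter_not S (fun p : ℕ => (p : ℝ) ≤ Real.exp (1 / t))
      (fun p => min 1 (t * Real.log p) / (p : ℝ))
    rw [← hsplit]
    have hA : ∑ p ∈ S.filter (fun p : ℕ => (p : ℝ) ≤ Real.exp (1 / t)), min 1 (t * Real.log p) / (p : ℝ) ≤ 8 := by
      rcases le_or_gt 2 (Real.exp (1 / t)) with h2 | h2
      · have h3 := sum_log_div (S := S.filter (fun p : ℕ => (p : ℝ) ≤ Real.exp (1 / t)))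
          (fun p hp => hS p (mem_filter.1 hp).1) h2 (fun p hp => (mem_filter.1 hp).2)
        rw [Real.log_exp] at h3
        calc _ ≤ ∑ p ∈ S.filter (fun p : ℕ => (p : ℝ) ≤ Real.exp (1 / t)), t * (Real.log p / p) := by
              refine Finset.sum_le_sum fun p hp => ?_
              rw [mul_div_assoc']
              gcongr
              exact min_le_right _ _
          _ = t * ∑ p ∈ S.filter (fun p : ℕ => (p : ℝ) ≤ Real.exp (1 / t)), Real.log p / p := by
              rw [Finset.mul_sum]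
          _ ≤ t * (8 * (1 / t)) := by gcongr
          _ = 8 := by field_simp
      · have : S.filter (fun p : ℕ => (p : ℝ) ≤ Real.exp (1 / t)) = ∅ := by
          rw [Finset.filter_eq_empty_iff]
          intro p hp hcon
          have : (2 : ℝ) ≤ p := by exact_mod_cast (hS p hp).two_le
          linarith
        rw [this]; simp
    have hB : ∑ p ∈ S.filter (fun p : ℕ => ¬ (p : ℝ) ≤ Real.exp (1 / t)), min 1 (t * Real.log p) / (p : ℝ) ≤
        8 * (1 + Real.log (Real.log y / Real.log z)) := by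
      have h3 := sum_inv_range (S := S.filter (fun p : ℕ => ¬ (p : ℝ) ≤ Real.exp (1 / t)))
        (fun p hp => hS p (mem_filter.1 hp).1) hz2 hzy (fun p hp => by
          have hp' := mem_filter.1 hp
          refine max_le ?_ (not_le.1 hp'.2).le
          exact_mod_cast (hS p hp'.1).two_le)
        (fun p hp => h1 p (mem_filter.1 hp).1)
      refine le_trans (Finset.sum_le_sum fun p hp => ?_) h3
      gcongr
      exact min_le_left _ _
    have hC : Real.log (Real.log y / Real.log z) ≤ Real.log (1 + t * Real.log y) := by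
      apply Real.log_le_log (by positivity)
      rw [div_le_iff₀ hlz0]
      have : Real.log y ≤ t * Real.log y * Real.log z := by
        calc Real.log y = t * Real.log y * (1 / t) := by field_simp
          _ ≤ _ := by gcongr
      nlinarith
    linarith

end P004.H293
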