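import Vale.Agent.P004.H293.PrimeSums
import Vale.Agent.P004.H503.Iface3

/-!
# P004, module R0: sums over primes
-/

open Finset Real

namespace P004.H293

theorem pfPr : StPr where
  logp := by
    refine ⟨8, by norm_num, fun x hx => ?_⟩
    refine sum_log_div (fun p hp => (mem_filter.1 hp).2) hx fun p hp => ?_
    have := mem_range.1 (mem_filter.1 hp).1
    exact (Nat.cast_le.2 (Nat.lt_succ_iff.1 this)).trans (Nat.floor_le (by linarith))
  block := by
    refine ⟨32, by norm_num, fun x y hx hxy h => ?_⟩
    have h1 := sum_inv_range (S := (Finset.Ioc ⌊x⌋₊ ⌊y⌋₊).filter Nat.Prime)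
      (fun p hp => (mem_filter.1 hp).2) hx hxy
      (fun p hp => by
        have := (mem_Ioc.1 (mem_filter.1 hp).1).1
        exact ((Nat.floor_lt (by linarith)).1 this).le)
      (fun p hp => by
        have := (mem_Ioc.1 (mem_filter.1 hp).1).2
        exact (Nat.cast_le.2 this).trans (Nat.floor_le (by linarith)))
    refine h1.trans ?_
    have hlx : 0 < Real.log x := Real.log_pos (by linarith)
    have hly : 0 < Real.log y := Real.log_pos (by linarith)
    have h2 : Real.log (Real.log y / Real.log x) ≤ Real.log y / Real.log x - 1 :=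
      Real.log_le_sub_one_of_pos (by positivity)
    have h3 : Real.log y / Real.log x ≤ 3 := by
      rw [div_le_iff₀ hlx]; exact h
    linarith
  minlog := by
    refine ⟨32, by norm_num, fun t y ht hy => ?_⟩
    refine sum_min_log (fun p hp => (mem_filter.1 hp).2) ht hy fun p hp => ?_
    have := mem_range.1 (mem_filter.1 hp).1
    exact (Nat.cast_le.2 (Nat.lt_succ_iff.1 this)).trans (Nat.floor_le (by linarith))
  tail := by
    refine ⟨264, by norm_num, fun σ y N hσ hσ1 hy => ?_⟩
    refine sum_rpow_tail' (fun p hp => (mem_filter.1 hp).2) hy hσ hσ1 fun p hp => ?_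
    have := (mem_Ioo.1 (mem_filter.1 hp).1).1
    exact ((Nat.floor_lt (by linarith)).1 this).le

end P004.H293
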