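import Vale.Agent.P004.H293.RA

/-!
# P004, module R4: second moment of the first blocks
-/

open Finset Real

namespace P004.H293

open P004.H628 (mem_Ik yk_pos yk_anti Ik_disj)

lemma Mf_eq (L K : ℝ) (k₁ k₂ : ℕ) (ω : ℕ → ℝ) :
    Mf L K k₁ k₂ (P004.H628.ffx ω) = ∏ k ∈ Ico k₁ k₂, MM (Ik L k) (lk k) (K / L) ω := by
  unfold Mf
  exact Finset.prod_congr rfl fun k _ => Mk_eq L K k ω

lemma MM2_depOn {L : ℝ} (k l : ℕ) (z₀ : ℝ) :
    DepOn (Ik L k) (fun ω => MM (Ik L k) l z₀ ω ^ 2) := by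
  have := MM_depOn (I := Ik L k) (fun p hp => Ik_prime hp) l z₀
  intro ω ω' h
  have h1 := this ω ω' h
  simp only at h1 ⊢
  rw [h1]

lemma EN_Mf (hc : StCoef) {L K : ℝ} (hL : 1 ≤ L) (hK : 0 ≤ K) (k₂ : ℕ) {N : ℕ}
    (hN : yk L 0 < N) :
    EN N (fun X => (Mf L K 0 k₂ X) ^ 2) ≤
      Real.exp (11000 * ∑ k ∈ Ico 0 k₂, ∑ p ∈ Ik L k, (1 : ℝ) / p) := by
  have hL0 : 0 ≤ L := by linarith
  rw [P004.H628.EN_eq]
  have h1 := EE_blocks hL0 hN (Ico 0 k₂) (fun k ω => MM (Ik L k) (lk k) (K / L) ω ^ 2)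
    (fun k _ => MM2_depOn k _ _) (fun _ _ => 1)
  simp only [Finset.prod_const_one, mul_one, E1_const] at h1
  have h2 : (fun ω => (Mf L K 0 k₂ (P004.H628.ffx ω)) ^ 2) =
      fun ω => ∏ k ∈ Ico 0 k₂, MM (Ik L k) (lk k) (K / L) ω ^ 2 := by
    funext ω
    rw [Mf_eq, Finset.prod_pow]
  rw [h2, h1, Finset.mul_sum, Real.exp_sum]
  refine Finset.prod_le_prod (fun k _ => ?_) fun k _ => ?_
  · exact EE_nonneg (fun p hp => (Ik_prime hp).one_lt.le) fun ω _ => by positivity
  · refine (EE_MM2 (fun p hp => Ik_prime hp) (fun p hp => Ik_three hp) hc (lk k)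
      (by positivity)).trans ?_
    rw [Finset.mul_sum, Real.exp_sum]
    refine Finset.prod_le_prod (fun p _ => by positivity) fun p _ => ?_
    linarith [Real.add_one_le_exp (11000 * ((1 : ℝ) / p))]

theorem pfR4 (hc : StCoef) : StR4 := by
  have hC1 : (88000 : ℝ) ≤ Real.exp 440000 := by
    have := Real.add_one_le_exp (440000 : ℝ)
    linarith
  refine ⟨Real.exp 440000, Real.one_le_exp (by norm_num), fun L K k₂ N hL hK hN => ⟨?_, ?_⟩⟩
  · refine (EN_Mf hc hL hK k₂ hN).trans ?_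
    rw [← Real.exp_nat_mul]
    apply Real.exp_le_exp.2
    have : ∑ k ∈ Ico 0 k₂, ∑ p ∈ Ik L k, (1 : ℝ) / p ≤ ∑ k ∈ Ico 0 k₂, 40 :=
      Finset.sum_le_sum fun k _ => sum_Ik (by linarith) k
    rw [Finset.sum_const, Nat.card_Ico, nsmul_eq_mul, Nat.sub_zero] at this
    linarith
  · refine (EN_Mf hc hL hK _ hN).trans ?_
    have hL0 : 0 < L := by linarith
    rw [← Finset.sum_biUnion (Ik_pairwise hL0.le _)]
    set U := (Ico 0 ⌈L⌉₊).biUnion (fun k => Ik L k) with hU
    have hUp : ∀ p ∈ U, p.Prime := by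
      intro p hp
      obtain ⟨k, _, hk⟩ := mem_biUnion.1 hp
      exact Ik_prime hk
    have hUy : ∀ p ∈ U, (p : ℝ) ≤ yk L 0 := by
      intro p hp
      obtain ⟨k, _, hk⟩ := mem_biUnion.1 hp
      exact (mem_Ik.1 hk).1.trans (yk_anti hL0.le (Nat.zero_le k))
    have hsum : ∑ p ∈ U, (1 : ℝ) / p ≤ 8 * (1 + Real.log L) := by
      have hlogL : 0 ≤ Real.log L := Real.log_nonneg hL
      rcases lt_or_ge (yk L 0) 2 with h | h
      · have : U = ∅ := by
          rw [Finset.eq_empty_iff_forall_notMem]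
          intro p hp
          have h3 : (2 : ℝ) ≤ p := by exact_mod_cast (hUp p hp).two_le
          linarith [hUy p hp]
        rw [this]; simp; linarith
      · have h1 := sum_inv_range hUp le_rfl h (fun p hp => by exact_mod_cast (hUp p hp).two_le) hUy
        refine h1.trans ?_
        have h2 : Real.log (Real.log (yk L 0) / Real.log 2) ≤ Real.log L := by
          apply Real.log_le_log
          · have := Real.log_pos (by linarith : 1 < yk L 0)
            have := Real.log_pos (by norm_num : (1 : ℝ) < 2)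
            positivity
          · rw [div_le_iff₀ (Real.log_pos (by norm_num)), log_yk]
            simp only [CharP.cast_eq_zero, neg_zero, Real.exp_zero, mul_one]
            have := Real.log_two_gt_d9
            nlinarith
        linarith
    calc Real.exp (11000 * ∑ p ∈ U, (1 : ℝ) / p) ≤ Real.exp (88000 + 88000 * Real.log L) := by
          apply Real.exp_le_exp.2; linarith
      _ = Real.exp 88000 * L ^ (88000 : ℝ) := by
          rw [Real.exp_add, Real.rpow_def_of_pos hL0, mul_comm (Real.log L)]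
      _ ≤ Real.exp 440000 * L ^ Real.exp 440000 := by
          gcongr
          norm_num

end P004.H293
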