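import Vale.Agent.P004.Iface

/-!
# P004: the random model

Independent random signs `ω p ∈ {0, 1, -1}` with probabilities `1/p, (1-1/p)/2, (1-1/p)/2`,
expectation over a finite set of primes as an iterated weighted sum.
-/

open Finset Real

namespace P004.H293

/-- expectation over one coordinate -/
noncomputable def E1 (p : ℕ) (G : ℝ → ℝ) : ℝ :=
  1 / p * G 0 + (1 - 1 / p) / 2 * (G 1 + G (-1))

/-- expectation over the coordinates in a list -/
noncomputable def EL : List ℕ → ((ℕ → ℝ) → ℝ) → ℝ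
  | [], F => F 0
  | p :: l, F => E1 p (fun x => EL l (fun ω => F (Function.update ω p x)))

lemma E1_add (p : ℕ) (G H : ℝ → ℝ) : E1 p (fun x => G x + H x) = E1 p G + E1 p H := by
  unfold E1; ring

lemma E1_mul_left (p : ℕ) (c : ℝ) (G : ℝ → ℝ) : E1 p (fun x => c * G x) = c * E1 p G := by
  unfold E1; ring

lemma E1_comm (p q : ℕ) (G : ℝ → ℝ → ℝ) :
    E1 p (fun x => E1 q (fun y => G x y)) = E1 q (fun y => E1 p (fun x => G x y)) := by
  unfold E1; ring

lemma E1_mono {p : ℕ} (hp : 1 ≤ p) {G H : ℝ → ℝ} (h : ∀ x, x = 0 ∨ x = 1 ∨ x = -1 → G x ≤ H x) :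
    E1 p G ≤ E1 p H := by
  unfold E1
  have hp' : (1 : ℝ) ≤ p := by exact_mod_cast hp
  have h1 : (1 : ℝ) / p ≤ 1 := by rw [div_le_one (by linarith)]; exact hp'
  have h2 : 0 ≤ (1 - 1 / (p : ℝ)) / 2 := by linarith
  have h3 : (0 : ℝ) ≤ 1 / p := by positivity
  have a := h 0 (Or.inl rfl)
  have b := h 1 (Or.inr (Or.inl rfl))
  have c := h (-1) (Or.inr (Or.inr rfl))
  gcongr

lemma E1_const (p : ℕ) (c : ℝ) : E1 p (fun _ => c) = c := by
  unfold E1; ring

lemma E1_congr {p : ℕ} {G H : ℝ → ℝ} (h : ∀ x, x = 0 ∨ x = 1 ∨ x = -1 → G x = H x) :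
    E1 p G = E1 p H := by
  unfold E1
  rw [h 0 (Or.inl rfl), h 1 (Or.inr (Or.inl rfl)), h (-1) (Or.inr (Or.inr rfl))]

lemma EL_add (l : List ℕ) : ∀ (F G : (ℕ → ℝ) → ℝ),
    EL l (fun ω => F ω + G ω) = EL l F + EL l G := by
  induction l with
  | nil => intro F G; rfl
  | cons p l ih =>
    intro F G
    simp only [EL]
    rw [← E1_add]
    congr 1
    funext x
    exact ih _ _

lemma EL_mul_left (l : List ℕ) : ∀ (c : ℝ) (F : (ℕ → ℝ) → ℝ),
    EL l (fun ω => c * F ω) = c * EL l F := by
  induction l with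
  | nil => intro c F; rfl
  | cons p l ih =>
    intro c F
    simp only [EL]
    rw [← E1_mul_left]
    congr 1
    funext x
    exact ih _ _

lemma EL_const (l : List ℕ) (c : ℝ) : EL l (fun _ => c) = c := by
  induction l with
  | nil => rfl
  | cons p l ih =>
    simp only [EL, ih]
    exact E1_const p c

lemma EL_perm {l l' : List ℕ} (h : l.Perm l') : ∀ F, EL l F = EL l' F := by
  induction h with
  | nil => intro F; rfl
  | cons p _ ih =>
    intro F
    simp only [EL]
    congr 1
    funext x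
    exact ih _
  | swap p q l =>
    intro F
    simp only [EL]
    by_cases hpq : p = q
    · subst hpq; rfl
    · rw [E1_comm]
      congr 1
      funext x
      congr 1
      funext y
      congr 1
      funext ω
      rw [Function.update_comm hpq]
  | trans _ _ ih1 ih2 => intro F; rw [ih1, ih2]

/-- expectation over a finite set of coordinates -/
noncomputable def EE (S : Finset ℕ) (F : (ℕ → ℝ) → ℝ) : ℝ := EL S.toList F

lemma EE_empty (F : (ℕ → ℝ) → ℝ) : EE ∅ F = F 0 := by
  simp [EE, EL]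

lemma EE_insert {S : Finset ℕ} {p : ℕ} (hp : p ∉ S) (F : (ℕ → ℝ) → ℝ) :
    EE (insert p S) F = E1 p (fun x => EE S (fun ω => F (Function.update ω p x))) := by
  unfold EE
  rw [EL_perm (Finset.toList_insert hp)]
  rfl

lemma EE_add (S : Finset ℕ) (F G : (ℕ → ℝ) → ℝ) :
    EE S (fun ω => F ω + G ω) = EE S F + EE S G := EL_add _ _ _

lemma EE_mul_left (S : Finset ℕ) (c : ℝ) (F : (ℕ → ℝ) → ℝ) :
    EE S (fun ω => c * F ω) = c * EE S F := EL_mul_left _ _ _

lemma EE_mul_right (S : Finset ℕ) (c : ℝ) (F : (ℕ → ℝ) → ℝ) :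
    EE S (fun ω => F ω * c) = EE S F * c := by
  rw [mul_comm, ← EE_mul_left]
  congr 1
  funext ω
  ring

lemma EE_const (S : Finset ℕ) (c : ℝ) : EE S (fun _ => c) = c := EL_const _ _

lemma EE_neg (S : Finset ℕ) (F : (ℕ → ℝ) → ℝ) : EE S (fun ω => - F ω) = - EE S F := by
  have := EE_mul_left S (-1) F
  simpa using this

lemma EE_sub (S : Finset ℕ) (F G : (ℕ → ℝ) → ℝ) :
    EE S (fun ω => F ω - G ω) = EE S F - EE S G := by
  simp_rw [sub_eq_add_neg]
  rw [EE_add, EE_neg]

lemma EE_sum {ι : Type*} (S : Finset ℕ) (T : Finset ι) (F : ι → (ℕ → ℝ) → ℝ) :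
    EE S (fun ω => ∑ i ∈ T, F i ω) = ∑ i ∈ T, EE S (F i) := by
  classical
  induction T using Finset.induction_on with
  | empty => simp [EE_const]
  | insert i T hi ih =>
    simp_rw [Finset.sum_insert hi]
    rw [EE_add, ih]

/-- the sample points: assignments with values in `{0, 1, -1}`, vanishing outside `S` -/
def Adm (S : Finset ℕ) (ω : ℕ → ℝ) : Prop :=
  (∀ p, ω p = 0 ∨ ω p = 1 ∨ ω p = -1) ∧ ∀ p, p ∉ S → ω p = 0

lemma Adm.zero : Adm ∅ 0 := ⟨fun _ => Or.inl rfl, fun _ _ => rfl⟩

lemma Adm.update {S : Finset ℕ} {ω : ℕ → ℝ} (h : Adm S ω) (p : ℕ) {x : ℝ}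
    (hx : x = 0 ∨ x = 1 ∨ x = -1) : Adm (insert p S) (Function.update ω p x) := by
  refine ⟨fun q => ?_, fun q hq => ?_⟩
  · by_cases hqp : q = p
    · subst hqp; simpa using hx
    · rw [Function.update_of_ne hqp]; exact h.1 q
  · rw [Finset.mem_insert, not_or] at hq
    rw [Function.update_of_ne hq.1]
    exact h.2 q hq.2

lemma EE_congr {S : Finset ℕ} {F G : (ℕ → ℝ) → ℝ} (h : ∀ ω, Adm S ω → F ω = G ω) :
    EE S F = EE S G := by
  classical
  induction S using Finset.induction_on generalizing F G with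
  | empty => rw [EE_empty, EE_empty]; exact h 0 Adm.zero
  | insert p S hp ih =>
    rw [EE_insert hp, EE_insert hp]
    refine E1_congr fun x hx => ih fun ω hω => h _ (hω.update p hx)

lemma EE_mono {S : Finset ℕ} (hS : ∀ p ∈ S, 1 ≤ p) {F G : (ℕ → ℝ) → ℝ}
    (h : ∀ ω, Adm S ω → F ω ≤ G ω) : EE S F ≤ EE S G := by
  classical
  induction S using Finset.induction_on generalizing F G with
  | empty => rw [EE_empty, EE_empty]; exact h 0 Adm.zero
  | insert p S hp ih =>
    rw [EE_insert hp, EE_insert hp]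
    refine E1_mono (hS p (mem_insert_self _ _)) fun x hx => ih (fun q hq => hS q (mem_insert_of_mem hq))
      fun ω hω => h _ (hω.update p hx)

lemma EE_nonneg {S : Finset ℕ} (hS : ∀ p ∈ S, 1 ≤ p) {F : (ℕ → ℝ) → ℝ}
    (h : ∀ ω, Adm S ω → 0 ≤ F ω) : 0 ≤ EE S F := by
  have := EE_mono hS h
  rwa [EE_const] at this

/-- `F` depends only on the coordinates in `S` -/
def DepOn (S : Finset ℕ) (F : (ℕ → ℝ) → ℝ) : Prop :=
  ∀ ω ω' : ℕ → ℝ, (∀ p ∈ S, ω p = ω' p) → F ω = F ω'

lemma DepOn.update {S : Finset ℕ} {F : (ℕ → ℝ) → ℝ} {p : ℕ} (h : DepOn (insert p S) F) (x : ℝ) :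
    DepOn S (fun ω => F (Function.update ω p x)) := by
  intro ω ω' hω
  refine h _ _ fun q hq => ?_
  by_cases hqp : q = p
  · subst hqp; simp
  · rw [Function.update_of_ne hqp, Function.update_of_ne hqp]
    exact hω q ((mem_insert.1 hq).resolve_left hqp)

lemma DepOn.mono {S T : Finset ℕ} {F : (ℕ → ℝ) → ℝ} (h : DepOn S F) (hST : S ⊆ T) : DepOn T F :=
  fun ω ω' hω => h ω ω' fun p hp => hω p (hST hp)

lemma DepOn.mul {S : Finset ℕ} {F G : (ℕ → ℝ) → ℝ} (hF : DepOn S F) (hG : DepOn S G) :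
    DepOn S (fun ω => F ω * G ω) := by
  intro ω ω' h
  simp only [hF ω ω' h, hG ω ω' h]

lemma DepOn.prod {ι : Type*} {S : Finset ℕ} (T : Finset ι) {F : ι → (ℕ → ℝ) → ℝ}
    (hF : ∀ i ∈ T, DepOn S (F i)) : DepOn S (fun ω => ∏ i ∈ T, F i ω) := by
  intro ω ω' h
  refine Finset.prod_congr rfl fun i hi => hF i hi ω ω' h

/-- independence -/
theorem EE_union {S T : Finset ℕ} (hST : Disjoint S T) {F G : (ℕ → ℝ) → ℝ} (hF : DepOn S F)
    (hG : DepOn T G) : EE (S ∪ T) (fun ω => F ω * G ω) = EE S F * EE T G := by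
  classical
  induction S using Finset.induction_on generalizing F with
  | empty =>
    rw [Finset.empty_union, EE_empty]
    rw [← EE_mul_left]
    refine EE_congr fun ω _ => ?_
    rw [hF ω 0 (by simp)]
  | insert p S hp ih =>
    have hpT : p ∉ T := Finset.disjoint_left.1 hST (mem_insert_self _ _)
    have hST' : Disjoint S T := Finset.disjoint_of_subset_left (Finset.subset_insert _ _) hST
    rw [Finset.insert_union, EE_insert (by simp [hp, hpT]), EE_insert hp]
    have : ∀ x, EE (S ∪ T) (fun ω => F (Function.update ω p x) * G (Function.update ω p x)) =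
        EE S (fun ω => F (Function.update ω p x)) * EE T G := by
      intro x
      rw [← ih hST' (hF.update x)]
      congr 1
      funext ω
      congr 1
      refine hG _ _ fun q hq => ?_
      have hqp : q ≠ p := fun h => hpT (h ▸ hq)
      rw [Function.update_of_ne hqp]
    simp_rw [this]
    unfold E1
    ring

/-- independence over a finite family of pairwise disjoint blocks -/
theorem EE_biUnion {ι : Type*} [DecidableEq ι] (J : Finset ι) (I : ι → Finset ℕ)
    (hI : (J : Set ι).PairwiseDisjoint I) (F : ι → (ℕ → ℝ) → ℝ)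
    (hF : ∀ i ∈ J, DepOn (I i) (F i)) :
    EE (J.biUnion I) (fun ω => ∏ i ∈ J, F i ω) = ∏ i ∈ J, EE (I i) (F i) := by
  classical
  induction J using Finset.induction_on with
  | empty => simp [EE_const]
  | insert i J hi ih =>
    have hI' : (J : Set ι).PairwiseDisjoint I := hI.subset (by simp)
    rw [Finset.biUnion_insert, Finset.prod_insert hi,
      ← ih hI' (fun j hj => hF j (mem_insert_of_mem hj)), ← EE_union]
    · congr 1
      funext ω
      rw [Finset.prod_insert hi]
    · rw [Finset.disjoint_biUnion_right]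
      intro j hj
      exact hI (by simp) (by simp [hj]) (fun h => hi (h ▸ hj))
    · exact hF i (mem_insert_self _ _)
    · refine DepOn.prod J fun j hj => (hF j (mem_insert_of_mem hj)).mono ?_
      exact Finset.subset_biUnion_of_mem I hj

lemma EE_singleton (p : ℕ) (G : ℝ → ℝ) : EE {p} (fun ω => G (ω p)) = E1 p G := by
  rw [← insert_empty_eq p, EE_insert (by simp)]
  congr 1
  funext x
  rw [EE_empty]
  simp

/-- the expectation of a product of functions of single coordinates -/
theorem EE_prod (S : Finset ℕ) (G : ℕ → ℝ → ℝ) :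
    EE S (fun ω => ∏ p ∈ S, G p (ω p)) = ∏ p ∈ S, E1 p (G p) := by
  classical
  have h := EE_biUnion S (fun p => {p}) (by
    intro p _ q _ hpq
    simpa [Function.onFun] using hpq) (fun p ω => G p (ω p)) (by
    intro p _ ω ω' h
    simp only
    rw [h p (by simp)])
  simp only [EE_singleton] at h
  rw [← h]
  congr 1
  ext p
  simp

/-- coordinates on which the function does not depend can be dropped -/
theorem EE_of_depOn {S T : Finset ℕ} (hST : S ⊆ T) {F : (ℕ → ℝ) → ℝ} (hF : DepOn S F) :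
    EE T F = EE S F := by
  classical
  have h := EE_union (S := S) (T := T \ S) Finset.disjoint_sdiff hF (G := fun _ => 1)
    (fun _ _ _ => rfl)
  rw [Finset.union_sdiff_of_subset hST] at h
  simpa [EE_const] using h

end P004.H293
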