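import Vale.Agent.P004.H293.Rand

/-!
# P004: estimates for one Euler factor in the random model
-/

open Finset Real

namespace P004.H293

/-- the average over the two signs kills the linear term -/
lemma E1_normSq_le {p : ℕ} (hp : 1 ≤ p) {F : ℝ → ℂ} {a : ℂ} {A B : ℝ} (h0 : F 0 = 1)
    (h1 : ‖F 1 - (1 + a)‖ ≤ B) (h2 : ‖F (-1) - (1 - a)‖ ≤ B) (ha : ‖a‖ ≤ A) :
    E1 p (fun x => ‖F x‖ ^ 2) ≤ 1 + A ^ 2 + 2 * (1 + A) * B + B ^ 2 := by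
  have hB : 0 ≤ B := (norm_nonneg _).trans h1
  have hA : 0 ≤ A := (norm_nonneg _).trans ha
  have e1 : ‖F 1‖ ≤ ‖1 + a‖ + B := by
    calc ‖F 1‖ = ‖(1 + a) + (F 1 - (1 + a))‖ := by congr 1; ring
      _ ≤ ‖1 + a‖ + ‖F 1 - (1 + a)‖ := norm_add_le _ _
      _ ≤ _ := by gcongr
  have e2 : ‖F (-1)‖ ≤ ‖1 - a‖ + B := by
    calc ‖F (-1)‖ = ‖(1 - a) + (F (-1) - (1 - a))‖ := by congr 1; ring
      _ ≤ ‖1 - a‖ + ‖F (-1) - (1 - a)‖ := norm_add_le _ _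
      _ ≤ _ := by gcongr
  have n1 : ‖1 + a‖ ≤ 1 + A := (norm_add_le _ _).trans (by simpa using ha)
  have n2 : ‖1 - a‖ ≤ 1 + A := (norm_sub_le _ _).trans (by simpa using ha)
  have hpar : ‖1 + a‖ ^ 2 + ‖1 - a‖ ^ 2 = 2 * (1 + ‖a‖ ^ 2) := by
    have := parallelogram_law_with_norm ℝ (1 : ℂ) a
    simp only [norm_one] at this
    nlinarith
  have f1 : ‖F 1‖ ^ 2 ≤ ‖1 + a‖ ^ 2 + 2 * (1 + A) * B + B ^ 2 := by
    have := pow_le_pow_left₀ (norm_nonneg _) e1 2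
    nlinarith [mul_nonneg hB (sub_nonneg.2 n1)]
  have f2 : ‖F (-1)‖ ^ 2 ≤ ‖1 - a‖ ^ 2 + 2 * (1 + A) * B + B ^ 2 := by
    have := pow_le_pow_left₀ (norm_nonneg _) e2 2
    nlinarith [mul_nonneg hB (sub_nonneg.2 n2)]
  have ha2 : ‖a‖ ^ 2 ≤ A ^ 2 := pow_le_pow_left₀ (norm_nonneg _) ha 2
  unfold E1
  have hp' : (1 : ℝ) ≤ p := by exact_mod_cast hp
  have h1p : (1 : ℝ) / p ≤ 1 := by rw [div_le_one (by linarith)]; exact hp'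
  have h0p : (0 : ℝ) ≤ 1 / p := by positivity
  simp only [h0, norm_one]
  set q : ℝ := 1 / p
  have hq : 0 ≤ (1 - q) / 2 := by linarith
  have hsum : ‖F 1‖ ^ 2 + ‖F (-1)‖ ^ 2 ≤ 2 * (1 + A ^ 2 + 2 * (1 + A) * B + B ^ 2) := by
    nlinarith
  have hR : 0 ≤ A ^ 2 + 2 * (1 + A) * B + B ^ 2 := by positivity
  calc q * 1 ^ 2 + (1 - q) / 2 * (‖F 1‖ ^ 2 + ‖F (-1)‖ ^ 2)
      ≤ q * 1 ^ 2 + (1 - q) / 2 * (2 * (1 + A ^ 2 + 2 * (1 + A) * B + B ^ 2)) := by gcongr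
    _ ≤ _ := by nlinarith

/-- lower bound for the denominator of an Euler factor -/
lemma den_lower {l : ℝ} (hl : |l| ≤ 2) {t : ℂ} (ht : ‖t‖ ≤ 1) :
    (1 - ‖t‖) ^ 2 ≤ ‖1 - l * t + t ^ 2‖ := by
  set φ := Real.arccos (l / 2) with hφ
  have hcos : Real.cos φ = l / 2 := by
    rw [hφ, Real.cos_arccos]
    · linarith [(abs_le.1 hl).1]
    · linarith [(abs_le.1 hl).2]
  have hfac : (1 - l * t + t ^ 2 : ℂ) =
      (t - Complex.exp (φ * Complex.I)) * (t - Complex.exp (-φ * Complex.I)) := by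
    have h1 : Complex.exp (φ * Complex.I) + Complex.exp (-φ * Complex.I) = l := by
      have := Complex.two_cos (φ : ℂ)
      rw [← this, ← Complex.ofReal_cos, hcos]
      push_cast; ring
    have h2 : Complex.exp (φ * Complex.I) * Complex.exp (-φ * Complex.I) = 1 := by
      rw [← Complex.exp_add]; simp
    calc (1 - l * t + t ^ 2 : ℂ) = t ^ 2 - (Complex.exp (φ * Complex.I) +
          Complex.exp (-φ * Complex.I)) * t + Complex.exp (φ * Complex.I) *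
            Complex.exp (-φ * Complex.I) := by rw [h1, h2]; ring
      _ = _ := by ring
  rw [hfac, norm_mul, sq]
  have n1 : ‖Complex.exp (φ * Complex.I)‖ = 1 := Complex.norm_exp_ofReal_mul_I φ
  have n2 : ‖Complex.exp (-φ * Complex.I)‖ = 1 := by
    have := Complex.norm_exp_ofReal_mul_I (-φ)
    push_cast at this
    exact this
  have a1 : 1 - ‖t‖ ≤ ‖t - Complex.exp (φ * Complex.I)‖ := by
    have := norm_sub_norm_le (Complex.exp (φ * Complex.I)) t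
    rw [n1, norm_sub_rev] at this
    exact this
  have a2 : 1 - ‖t‖ ≤ ‖t - Complex.exp (-φ * Complex.I)‖ := by
    have := norm_sub_norm_le (Complex.exp (-φ * Complex.I)) t
    rw [n2, norm_sub_rev] at this
    exact this
  have h0 : 0 ≤ 1 - ‖t‖ := by linarith
  exact mul_le_mul a1 a2 h0 (h0.trans a1)

/-- for `‖t‖ ≤ 3/5` the denominator is at least `4/25` -/
lemma den_lower' {l : ℝ} (hl : |l| ≤ 2) {t : ℂ} (ht : ‖t‖ ≤ 3 / 5) :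
    4 / 25 ≤ ‖1 - l * t + t ^ 2‖ := by
  have h := den_lower hl (ht.trans (by norm_num))
  nlinarith

/-- the Euler factor in the variable `t`, numerator with `y` -/
lemma ratio_bound {l : ℝ} (hl : |l| ≤ 2) {t y : ℂ} {r : ℝ} (ht : ‖t‖ ≤ r) (hy : ‖y‖ ≤ r)
    (hr : r ≤ 3 / 5) :
    ‖(1 - l * y + y ^ 2) * (1 - l * t + t ^ 2)⁻¹ - (1 + l * (t - y))‖ ≤ 80 * (‖t - y‖ * r) := by
  have hr0 : 0 ≤ r := (norm_nonneg _).trans ht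
  set D : ℂ := 1 - l * t + t ^ 2 with hD
  have hDn : 4 / 25 ≤ ‖D‖ := den_lower' hl (ht.trans hr)
  have hD0 : D ≠ 0 := by
    intro h; rw [h, norm_zero] at hDn; norm_num at hDn
  have hl' : ‖(l : ℂ)‖ ≤ 2 := by simpa using hl
  have heq : (1 - l * y + y ^ 2) * D⁻¹ - (1 + l * (t - y)) =
      (t - y) * (-(y + t) + l ^ 2 * t - l * t ^ 2) * D⁻¹ := by
    field_simp
    rw [hD]
    ring
  rw [heq, norm_mul, norm_mul, norm_inv]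
  have h1 : ‖-(y + t) + (l : ℂ) ^ 2 * t - l * t ^ 2‖ ≤ 8 * r := by
    calc ‖-(y + t) + (l : ℂ) ^ 2 * t - l * t ^ 2‖
        ≤ ‖-(y + t) + (l : ℂ) ^ 2 * t‖ + ‖(l : ℂ) * t ^ 2‖ := norm_sub_le _ _
      _ ≤ (‖-(y + t)‖ + ‖(l : ℂ) ^ 2 * t‖) + ‖(l : ℂ) * t ^ 2‖ := by gcongr; exact norm_add_le _ _
      _ ≤ ((‖y‖ + ‖t‖) + 2 ^ 2 * ‖t‖) + 2 * ‖t‖ ^ 2 := by
          rw [norm_neg, norm_mul, norm_mul, norm_pow, norm_pow]
          gcongr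
          exact norm_add_le _ _
      _ ≤ ((r + r) + 2 ^ 2 * r) + 2 * r ^ 2 := by gcongr
      _ ≤ 8 * r := by nlinarith
  have h2 : ‖D‖⁻¹ ≤ 25 / 4 := by
    rw [show (25 / 4 : ℝ) = (4 / 25)⁻¹ by norm_num]
    exact inv_anti₀ (by norm_num) hDn
  calc ‖t - y‖ * ‖-(y + t) + (l : ℂ) ^ 2 * t - l * t ^ 2‖ * ‖D‖⁻¹
      ≤ ‖t - y‖ * (8 * r) * (25 / 4) := by gcongr
    _ ≤ 80 * (‖t - y‖ * r) := by
        have : 0 ≤ ‖t - y‖ * r := by positivity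
        nlinarith

/-- the Euler factor of `L(1 + z, f)` at `p` -/
noncomputable def Lp (p : ℕ) (s : ℂ) (x : ℝ) : ℂ :=
  (1 - (ca p : ℂ) * (x : ℂ) * (p : ℂ) ^ (-s) + (x : ℂ) ^ 2 * (p : ℂ) ^ (1 - 2 * s))⁻¹

/-- `p^{-1/2-z}` -/
noncomputable def tt (p : ℕ) (z : ℂ) : ℂ := (p : ℂ) ^ (-(1 / 2) - z)

lemma norm_tt {p : ℕ} (hp : 0 < p) (z : ℂ) : ‖tt p z‖ = (p : ℝ) ^ (-(1 / 2) - z.re) := by
  unfold tt
  rw [Complex.norm_natCast_cpow_of_pos hp]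
  congr 1
  simp

lemma norm_tt_sq {p : ℕ} (hp : 0 < p) (z : ℂ) : ‖tt p z‖ ^ 2 = (p : ℝ) ^ (-1 - 2 * z.re) := by
  rw [norm_tt hp, ← Real.rpow_natCast, ← Real.rpow_mul (by positivity)]
  congr 1
  push_cast
  ring

lemma norm_tt_le {p : ℕ} (hp : 3 ≤ p) {z : ℂ} (hz : 0 ≤ z.re) : ‖tt p z‖ ≤ 3 / 5 := by
  rw [norm_tt (by omega)]
  calc (p : ℝ) ^ (-(1 / 2) - z.re) ≤ (p : ℝ) ^ (-(1 / 2) : ℝ) :=
        Real.rpow_le_rpow_of_exponent_le (by exact_mod_cast (by omega : 1 ≤ p)) (by linarith)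
    _ ≤ (3 : ℝ) ^ (-(1 / 2) : ℝ) :=
        Real.rpow_le_rpow_of_nonpos (by norm_num) (by exact_mod_cast hp) (by norm_num)
    _ ≤ 3 / 5 := by
        rw [Real.rpow_neg (by norm_num : (0 : ℝ) ≤ 3), ← Real.sqrt_eq_rpow,
          show (3 / 5 : ℝ) = (5 / 3)⁻¹ by norm_num]
        apply inv_anti₀ (by norm_num)
        apply Real.le_sqrt_of_sq_le
        norm_num

lemma norm_tt_le' {p : ℕ} (hp : 3 ≤ p) {z : ℂ} (hz : 0 ≤ z.re) :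
    ‖tt p z‖ ≤ (p : ℝ) ^ (-(1 / 2) : ℝ) := by
  rw [norm_tt (by omega)]
  exact Real.rpow_le_rpow_of_exponent_le (by exact_mod_cast (by omega : 1 ≤ p)) (by linarith)

lemma inv_sqrt_le {p : ℕ} (hp : 3 ≤ p) : (p : ℝ) ^ (-(1 / 2) : ℝ) ≤ 3 / 5 := by
  have := norm_tt_le hp (z := 0) le_rfl
  rw [norm_tt (by omega)] at this
  simpa using this

lemma inv_sqrt_sq {p : ℕ} (hp : 0 < p) : ((p : ℝ) ^ (-(1 / 2) : ℝ)) ^ 2 = 1 / p := by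
  rw [← Real.rpow_natCast, ← Real.rpow_mul (by positivity)]
  norm_num
  rw [Real.rpow_neg_one]

/-- `lam p = ca p / √p` is bounded by `2` -/
lemma abs_lam_le (hc : StCoef) {p : ℕ} (hp : p.Prime) : |lam p| ≤ 2 := by
  have h := hc.bound p
  have hd : dv p = 2 := by
    unfold dv
    rw [Nat.Prime.divisors hp, Finset.card_pair hp.one_lt.ne]
    norm_num
  rw [hd] at h
  unfold lam
  have hs : 0 < √(p : ℝ) := Real.sqrt_pos.2 (by exact_mod_cast hp.pos)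
  rw [abs_div, abs_of_pos hs, div_le_iff₀ hs]
  exact h

lemma Lp_eq {p : ℕ} (hp : 0 < p) (z : ℂ) (x : ℝ) :
    Lp p (1 + z) x = (1 - (lam p : ℂ) * (x * tt p z) + (x * tt p z) ^ 2)⁻¹ := by
  have hp0 : (p : ℂ) ≠ 0 := by exact_mod_cast hp.ne'
  have h1 : (ca p : ℂ) * (p : ℂ) ^ (-(1 + z)) = (lam p : ℂ) * tt p z := by
    have : (p : ℂ) ^ (-(1 + z)) = (p : ℂ) ^ (-(1 / 2) : ℂ) * (p : ℂ) ^ (-(1 / 2) - z) := by
      rw [← Complex.cpow_add _ _ hp0]; congr 1; ring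
    have hsq : ((√(p : ℝ) : ℝ) : ℂ)⁻¹ = (p : ℂ) ^ (-(1 / 2) : ℂ) := by
      rw [Complex.cpow_neg, Real.sqrt_eq_rpow, Complex.ofReal_cpow (by positivity)]
      norm_num
    have hlam : ((lam p : ℝ) : ℂ) = (ca p : ℂ) * (p : ℂ) ^ (-(1 / 2) : ℂ) := by
      unfold lam
      rw [Complex.ofReal_div, Complex.ofReal_intCast, ← hsq, div_eq_mul_inv]
    rw [this, hlam]
    unfold tt
    ring
  have h2 : (p : ℂ) ^ (1 - 2 * (1 + z)) = tt p z ^ 2 := by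
    unfold tt
    rw [← Complex.cpow_nat_mul]
    congr 1
    push_cast
    ring
  unfold Lp
  rw [h2]
  congr 2
  · congr 1
    calc (ca p : ℂ) * x * (p : ℂ) ^ (-(1 + z)) = ((ca p : ℂ) * (p : ℂ) ^ (-(1 + z))) * x := by ring
      _ = _ := by rw [h1]; ring
  · ring

/-- the numerator (inverse Euler factor at `1 + z₀`) -/
noncomputable def Np (p : ℕ) (z₀ : ℝ) (x : ℝ) : ℝ :=
  1 - (ca p : ℝ) * x * (p : ℝ) ^ (-1 - z₀) + x ^ 2 * (p * (p : ℝ) ^ (-2 - 2 * z₀))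

lemma tt_ofReal {p : ℕ} (z₀ : ℝ) : tt p z₀ = (((p : ℝ) ^ (-(1 / 2) - z₀) : ℝ) : ℂ) := by
  unfold tt
  rw [Complex.ofReal_cpow (by positivity)]
  push_cast
  rfl

lemma Np_eq {p : ℕ} (hp : 0 < p) (z₀ : ℝ) (x : ℝ) :
    Np p z₀ x = 1 - lam p * (x * (p : ℝ) ^ (-(1 / 2) - z₀)) +
      (x * (p : ℝ) ^ (-(1 / 2) - z₀)) ^ 2 := by
  have hp0 : (0 : ℝ) < p := by exact_mod_cast hp
  have h1 : (ca p : ℝ) * (p : ℝ) ^ (-1 - z₀) = lam p * (p : ℝ) ^ (-(1 / 2) - z₀) := by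
    unfold lam
    have : (p : ℝ) ^ (-1 - z₀) = (p : ℝ) ^ (-(1 / 2) : ℝ) * (p : ℝ) ^ (-(1 / 2) - z₀) := by
      rw [← Real.rpow_add hp0]; congr 1; ring
    rw [this, Real.rpow_neg hp0.le, Real.sqrt_eq_rpow, div_eq_mul_inv]
    ring
  have h2 : (p : ℝ) * (p : ℝ) ^ (-2 - 2 * z₀) = ((p : ℝ) ^ (-(1 / 2) - z₀)) ^ 2 := by
    rw [← Real.rpow_natCast, ← Real.rpow_mul hp0.le]
    nth_rw 1 [← Real.rpow_one (p : ℝ)]
    rw [← Real.rpow_add hp0]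
    congr 1
    push_cast
    ring
  unfold Np
  rw [h2]
  have : (ca p : ℝ) * x * (p : ℝ) ^ (-1 - z₀) = lam p * (x * (p : ℝ) ^ (-(1 / 2) - z₀)) := by
    calc (ca p : ℝ) * x * (p : ℝ) ^ (-1 - z₀) = ((ca p : ℝ) * (p : ℝ) ^ (-1 - z₀)) * x := by ring
      _ = _ := by rw [h1]; ring
  rw [this]
  ring

lemma ratio_eq {p : ℕ} (hp : 0 < p) (z₀ : ℝ) (z : ℂ) (x : ℝ) :
    (Np p z₀ x : ℂ) * Lp p (1 + z) x =
      (1 - (lam p : ℂ) * (x * tt p z₀) + (x * tt p z₀) ^ 2) *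
        (1 - (lam p : ℂ) * (x * tt p z) + (x * tt p z) ^ 2)⁻¹ := by
  rw [Lp_eq hp, Np_eq hp, tt_ofReal]
  push_cast
  rfl

/-- ratio of Euler factors, second moment -/
theorem E1_ratio (hc : StCoef) {p : ℕ} (hp : p.Prime) (hp3 : 3 ≤ p) {z : ℂ} {z₀ : ℝ}
    (hz : 0 ≤ z.re) (hz₀ : 0 ≤ z₀) :
    E1 p (fun x => ‖(Np p z₀ x : ℂ) * Lp p (1 + z) x‖ ^ 2) ≤
      1 + 6000 * (‖tt p z - tt p z₀‖ * (p : ℝ) ^ (-(1 / 2) : ℝ)) := by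
  have hl := abs_lam_le hc hp
  set t := tt p z
  set y := tt p z₀
  set r : ℝ := (p : ℝ) ^ (-(1 / 2) : ℝ)
  have hr : r ≤ 3 / 5 := inv_sqrt_le hp3
  have ht : ‖t‖ ≤ r := norm_tt_le' hp3 hz
  have hy : ‖y‖ ≤ r := norm_tt_le' hp3 (by simpa using hz₀)
  have hr0 : 0 ≤ r := (norm_nonneg _).trans ht
  have hδ : ‖t - y‖ ≤ 2 * r := (norm_sub_le _ _).trans (by linarith)
  have hδ0 : 0 ≤ ‖t - y‖ := norm_nonneg _
  have hl' : ‖(lam p : ℂ)‖ ≤ 2 := by simpa using hl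
  have hb1 := ratio_bound hl ht hy hr
  have hb2 := ratio_bound hl (t := -t) (y := -y) (r := r) (by rwa [norm_neg]) (by rwa [norm_neg]) hr
  have hneg : ‖-t - -y‖ = ‖t - y‖ := by
    rw [show -t - -y = -(t - y) by ring, norm_neg]
  rw [hneg] at hb2
  have key := E1_normSq_le (p := p) hp.one_lt.le
    (F := fun x => (Np p z₀ x : ℂ) * Lp p (1 + z) x) (a := (lam p : ℂ) * (t - y))
    (A := 2 * ‖t - y‖) (B := 80 * (‖t - y‖ * r)) ?_ ?_ ?_ ?_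
  · refine key.trans ?_
    have h1 : ‖t - y‖ ^ 2 ≤ 2 * (‖t - y‖ * r) := by nlinarith
    have h2 : (‖t - y‖ * r) ^ 2 ≤ (18 / 25) * (‖t - y‖ * r) := by
      have : ‖t - y‖ * r ≤ 18 / 25 := by nlinarith
      have h0 : 0 ≤ ‖t - y‖ * r := by positivity
      nlinarith
    have h3 : ‖t - y‖ ≤ 6 / 5 := by linarith
    have h0 : 0 ≤ ‖t - y‖ * r := by positivity
    have h4 : ‖t - y‖ * (‖t - y‖ * r) ≤ 6 / 5 * (‖t - y‖ * r) := by gcongr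
    nlinarith
  · show (Np p z₀ 0 : ℂ) * Lp p (1 + z) 0 = 1
    rw [ratio_eq hp.pos]; simp
  · show ‖(Np p z₀ 1 : ℂ) * Lp p (1 + z) 1 - _‖ ≤ _
    rw [ratio_eq hp.pos]
    simpa using hb1
  · show ‖(Np p z₀ (-1) : ℂ) * Lp p (1 + z) (-1) - _‖ ≤ _
    rw [ratio_eq hp.pos]
    have e : (1 : ℂ) - (lam p : ℂ) * (t - y) = 1 + (lam p : ℂ) * (-t - -y) := by ring
    rw [e]
    convert hb2 using 4 <;> push_cast <;> ring
  · rw [norm_mul]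
    gcongr

lemma Lp_bound (hc : StCoef) {p : ℕ} (hp : p.Prime) (hp3 : 3 ≤ p) {z : ℂ} (hz : 0 ≤ z.re) :
    Lp p (1 + z) 0 = 1 ∧
    ‖Lp p (1 + z) 1 - (1 + (lam p : ℂ) * tt p z)‖ ≤ 80 * ‖tt p z‖ ^ 2 ∧
    ‖Lp p (1 + z) (-1) - (1 - (lam p : ℂ) * tt p z)‖ ≤ 80 * ‖tt p z‖ ^ 2 := by
  have hl := abs_lam_le hc hp
  have ht : ‖tt p z‖ ≤ 3 / 5 := norm_tt_le hp3 hz
  have hb1 := ratio_bound hl (t := tt p z) (y := 0) le_rfl (by simp) ht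
  have hb2 := ratio_bound hl (t := - tt p z) (y := 0) (r := ‖tt p z‖) (by rw [norm_neg]) (by simp) ht
  refine ⟨by rw [Lp_eq hp.pos]; simp, ?_, ?_⟩
  · rw [Lp_eq hp.pos]
    simp only [mul_zero, sub_zero, ne_eq, OfNat.ofNat_ne_zero, not_false_eq_true, zero_pow,
      add_zero, one_mul] at hb1
    rw [sq ‖tt p z‖]
    simpa using hb1
  · rw [Lp_eq hp.pos]
    simp only [mul_zero, sub_zero, ne_eq, OfNat.ofNat_ne_zero, not_false_eq_true, zero_pow,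
      add_zero, one_mul, norm_neg] at hb2
    have e : (1 : ℂ) - (lam p : ℂ) * (tt p z) = 1 + (lam p : ℂ) * (-tt p z) := by ring
    rw [e, sq ‖tt p z‖]
    convert hb2 using 4
    push_cast; ring

/-- second moment of the Euler factor -/
theorem E1_Lp2 (hc : StCoef) {p : ℕ} (hp : p.Prime) (hp3 : 3 ≤ p) {z : ℂ} (hz : 0 ≤ z.re) :
    E1 p (fun x => ‖Lp p (1 + z) x‖ ^ 2) ≤ 1 + 3000 * ‖tt p z‖ ^ 2 := by
  obtain ⟨h0, h1, h2⟩ := Lp_bound hc hp hp3 hz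
  have hl := abs_lam_le hc hp
  have hl' : ‖(lam p : ℂ)‖ ≤ 2 := by simpa using hl
  have ht : ‖tt p z‖ ≤ 3 / 5 := norm_tt_le hp3 hz
  have ht0 : 0 ≤ ‖tt p z‖ := norm_nonneg _
  have key := E1_normSq_le (p := p) hp.one_lt.le (F := fun x => Lp p (1 + z) x)
    (A := 2 * ‖tt p z‖) h0 h1 h2 (by rw [norm_mul]; gcongr)
  refine key.trans ?_
  have h3 : ‖tt p z‖ * ‖tt p z‖ ^ 2 ≤ 3 / 5 * ‖tt p z‖ ^ 2 := by gcongr
  have h4 : ‖tt p z‖ ^ 2 ≤ 9 / 25 := by nlinarith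
  have h5 : (‖tt p z‖ ^ 2) ^ 2 ≤ 9 / 25 * ‖tt p z‖ ^ 2 := by
    rw [sq (‖tt p z‖ ^ 2)]; gcongr
  nlinarith

/-- fourth moment of the Euler factor -/
theorem E1_Lp4 (hc : StCoef) {p : ℕ} (hp : p.Prime) (hp3 : 3 ≤ p) {z : ℂ} (hz : 0 ≤ z.re) :
    E1 p (fun x => ‖Lp p (1 + z) x‖ ^ 4) ≤ 1 + 3000000 * ‖tt p z‖ ^ 2 := by
  obtain ⟨h0, h1, h2⟩ := Lp_bound hc hp hp3 hz
  have hl := abs_lam_le hc hp
  have hl' : ‖(lam p : ℂ)‖ ≤ 2 := by simpa using hl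
  have ht : ‖tt p z‖ ≤ 3 / 5 := norm_tt_le hp3 hz
  have ht0 : 0 ≤ ‖tt p z‖ := norm_nonneg _
  have h4 : ‖tt p z‖ ^ 2 ≤ 9 / 25 := by nlinarith
  have hquad : ∀ (u b : ℂ), ‖u‖ ≤ 2 * ‖tt p z‖ → ‖b - (1 + u)‖ ≤ 80 * ‖tt p z‖ ^ 2 →
      ‖b ^ 2 - (1 + 2 * u)‖ ≤ 2700 * ‖tt p z‖ ^ 2 := by
    intro u b hu hb
    set E := b - (1 + u) with hE
    have hb' : b = 1 + u + E := by rw [hE]; ring
    have : b ^ 2 - (1 + 2 * u) = u ^ 2 + 2 * (1 + u) * E + E ^ 2 := by rw [hb']; ring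
    rw [this]
    have hu' : ‖1 + u‖ ≤ 11 / 5 := by
      refine (norm_add_le _ _).trans ?_
      rw [norm_one]; linarith
    calc ‖u ^ 2 + 2 * (1 + u) * E + E ^ 2‖ ≤ ‖u ^ 2 + 2 * (1 + u) * E‖ + ‖E ^ 2‖ := norm_add_le _ _
      _ ≤ (‖u ^ 2‖ + ‖2 * (1 + u) * E‖) + ‖E ^ 2‖ := by gcongr; exact norm_add_le _ _
      _ = (‖u‖ ^ 2 + 2 * ‖1 + u‖ * ‖E‖) + ‖E‖ ^ 2 := by
          rw [norm_pow, norm_pow, norm_mul, norm_mul]; simp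
      _ ≤ ((2 * ‖tt p z‖) ^ 2 + 2 * (11 / 5) * (80 * ‖tt p z‖ ^ 2)) + (80 * ‖tt p z‖ ^ 2) ^ 2 := by
          gcongr
      _ ≤ 2700 * ‖tt p z‖ ^ 2 := by
          have h5 : (‖tt p z‖ ^ 2) ^ 2 ≤ 9 / 25 * ‖tt p z‖ ^ 2 := by
            rw [sq (‖tt p z‖ ^ 2)]; gcongr
          nlinarith
  have key := E1_normSq_le (p := p) hp.one_lt.le (F := fun x => Lp p (1 + z) x ^ 2)
    (a := 2 * ((lam p : ℂ) * tt p z)) (A := 4 * ‖tt p z‖) (B := 2700 * ‖tt p z‖ ^ 2)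
    (by simp [h0])
    (hquad _ _ (by rw [norm_mul]; gcongr) h1)
    (by
      have := hquad (-((lam p : ℂ) * tt p z)) (Lp p (1 + z) (-1)) (by
        rw [norm_neg, norm_mul]; gcongr) (by simpa [sub_eq_add_neg] using h2)
      convert this using 2
      ring)
    (by
      rw [norm_mul, norm_mul]
      have : ‖(2 : ℂ)‖ = 2 := by simp
      rw [this]
      calc 2 * (‖(lam p : ℂ)‖ * ‖tt p z‖) ≤ 2 * (2 * ‖tt p z‖) := by gcongr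
        _ = _ := by ring)
  have hpow : (fun x => ‖Lp p (1 + z) x‖ ^ 4) = fun x => ‖Lp p (1 + z) x ^ 2‖ ^ 2 := by
    funext x
    rw [norm_pow, ← pow_mul]
  rw [hpow]
  refine key.trans ?_
  have h3 : ‖tt p z‖ * ‖tt p z‖ ^ 2 ≤ 3 / 5 * ‖tt p z‖ ^ 2 := by gcongr
  have h5 : (‖tt p z‖ ^ 2) ^ 2 ≤ 9 / 25 * ‖tt p z‖ ^ 2 := by
    rw [sq (‖tt p z‖ ^ 2)]; gcongr
  nlinarith

/-- the majorant of the mollifier, eighth moment -/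
theorem E1_maj8 {p : ℕ} (hp3 : 3 ≤ p) :
    E1 p (fun x => (1 + 3 * (p : ℝ) ^ (-(1 / 2) : ℝ) * x) ^ 8) ≤ 1 + 11000 * (1 / p) := by
  set r : ℝ := (p : ℝ) ^ (-(1 / 2) : ℝ) with hrdef
  have hr : r ≤ 3 / 5 := inv_sqrt_le hp3
  have hr0 : 0 ≤ r := by positivity
  have hr2 : r ^ 2 = 1 / p := inv_sqrt_sq (by omega)
  have hp' : (1 : ℝ) ≤ p := by exact_mod_cast (by omega : 1 ≤ p)
  have h1p : (1 : ℝ) / p ≤ 1 := by rw [div_le_one (by linarith)]; exact hp'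
  have h0p : (0 : ℝ) ≤ 1 / p := by positivity
  unfold E1
  rw [← hr2]
  rw [← hr2] at h1p h0p
  have hs : r ^ 2 ≤ 9 / 25 := by nlinarith
  set q := r ^ 2 with hq
  have e1 : (1 + 3 * r * 0) ^ 8 = 1 := by ring
  beta_reduce
  have e2 : (1 + 3 * r * 1) ^ 8 + (1 + 3 * r * (-1)) ^ 8 =
      2 * (1 + 28 * 9 * q + 70 * 81 * q ^ 2 + 28 * 729 * q ^ 3 + 6561 * q ^ 4) := by
    rw [hq]; ring
  rw [e1, e2]
  have hq0 : 0 ≤ q := h0p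
  have q2 : q ^ 2 ≤ 9 / 25 * q := by nlinarith
  have q3 : q ^ 3 ≤ 81 / 625 * q := by nlinarith
  have q4 : q ^ 4 ≤ 729 / 15625 * q := by nlinarith
  have hbig : 1 + 28 * 9 * q + 70 * 81 * q ^ 2 + 28 * 729 * q ^ 3 + 6561 * q ^ 4 ≤
      1 + 11000 * q := by nlinarith
  have hpos : 0 ≤ (1 - q) / 2 := by linarith
  calc q * 1 + (1 - q) / 2 *
        (2 * (1 + 28 * 9 * q + 70 * 81 * q ^ 2 + 28 * 729 * q ^ 3 + 6561 * q ^ 4))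
      ≤ q * 1 + (1 - q) / 2 * (2 * (1 + 11000 * q)) := by gcongr
    _ ≤ 1 + 11000 * q := by nlinarith

/-- the majorant of the mollifier, fourth moment -/
theorem E1_maj4 {p : ℕ} (hp3 : 3 ≤ p) :
    E1 p (fun x => (1 + 3 * (p : ℝ) ^ (-(1 / 2) : ℝ) * x) ^ 4) ≤ 1 + 11000 * (1 / p) := by
  have h8 := E1_maj8 hp3
  have hle : E1 p (fun x => (1 + 3 * (p : ℝ) ^ (-(1 / 2) : ℝ) * x) ^ 4) ≤
      E1 p (fun x => 1 / 2 * 1 + 1 / 2 * (1 + 3 * (p : ℝ) ^ (-(1 / 2) : ℝ) * x) ^ 8) := by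
    refine E1_mono (by omega) fun x _ => ?_
    nlinarith [sq_nonneg ((1 + 3 * (p : ℝ) ^ (-(1 / 2) : ℝ) * x) ^ 4 - 1)]
  rw [E1_add, E1_mul_left, E1_mul_left, E1_const] at hle
  have h0 : (0 : ℝ) ≤ 1 / p := by positivity
  linarith

end P004.H293
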